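import Vale.Agent.Lib.P154Q4.CkA0
import Vale.Agent.Lib.P154Q4.CkA1
import Vale.Agent.Lib.P154Q4.CkA2
import Vale.Agent.Lib.P154Q4.CkA3
import Vale.Agent.Lib.P154Q4.CkA4
import Vale.Agent.Lib.P154Q4.CkA5
import Vale.Agent.Lib.P154Q4.CkA6
import Vale.Agent.Lib.P154Q4.CkA7

namespace Vale.Agent.Lib.P154Q4

set_option maxRecDepth 100000

theorem rootA00 : CKA ⟨0, 49152, 0, 4096⟩ ⟨0, 49152, 0, 4096⟩ :=
  (split1S okA0 okA1)

theorem rootA01 : CKA ⟨0, 49152, 0, 4096⟩ ⟨0, 49152, 4096, 12288⟩ :=
  (split2S (split2S (split1S (split2T (split2S (split1S okA2 (split1T okA3 okA4)) (split1S okA5 (split1T (split2T okA6 (split1T okA7 (split2T (split2S okA8 okA9) (split1S (split1T (split2T okA10 okA11) okA12) okA13)))) (split2T okA14 (split1T okA15 okA16))))) okA17) (split2T (split2S okA18 okA19) okA20)) (split1S (split2T (split1S okA21 (split1T (split2T okA22 (split1T okA23 (split2T (split2S okA24 (split1S (split1T okA25 okA26) okA27)) (split2S (split1S (split1T (split2T okA28 (split2S okA29 okA30)) okA31) okA32) (split1S (split1T (split2T okA33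 (split2S okA34 okA35)) okA36) okA37))))) (split2T okA38 (split1T (split2T okA39 okA40) okA41)))) (split1S okA42 (split1T (split2T (split1T okA43 (split2T (split2S (split1S (split1T (split2T (split2S okA44 okA45) okA46) okA47) okA48) (split1S (split1T (split2T okA49 okA50) okA51) okA52)) okA53)) okA54) okA55))) (split2T okA56 okA57))) (split1S (split2T okA58 (split1S okA59 (split1T (split2T (split1T okA60 (split2T okA61 (split1S (split1T (split2T okA62 okA63) okA64) okA65))) okA66) okA67))) okA68))

theorem rootA10 : CKA ⟨0, 49152, 4096, 12288⟩ ⟨0, 49152, 0, 4096⟩ :=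
  (split1S (split1S (split2S (split1T (split1S okA69 (split2S okA70 (split1T (split2T okA71 (split1T okA72 okA73)) (split2T okA74 okA75)))) okA76) okA77) (split2S (split1T (split2S okA78 (split1T (split2T okA79 (split1T okA80 okA81)) (split2T okA82 (split1T okA83 okA84)))) okA85) okA86)) okA87)

theorem rootA11 : CKA ⟨0, 49152, 4096, 12288⟩ ⟨0, 49152, 4096, 12288⟩ :=
  (split1S (split2S (split1S (split2S (split1T (split2T (split1S okA88 (split2S okA89 (split1T okA90 okA91))) okA92) okA93) (split1T okA94 okA95)) (split2S (split1T (split2T (split2S okA96 (split1T okA97 okA98)) okA99) okA100) (split1T (split2T okA101 (split1T (split2T (split1T okA102 okA103) okA104) okA105)) okA106))) (split1S okA107 (split1T okA108 okA109))) (split2S okA110 (split1T okA111 (split2T okA112 okA113))))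

end Vale.Agent.Lib.P154Q4
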