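import Vale.Agent.Lib.P154Q4.NearMain

namespace Vale.Agent.Lib.P154Q4

/-- pairs of cells near the origin -/
def nearA (x y : Cell) : Bool := and (Nat.ble x.sh 64) (Nat.ble y.sh 64)

/-- what is proved on pairs of points for the first inequality -/
def PA (S τ q S' τ' q' : ℝ) : Prop := 0 ≤ dotR (bRA (ptF S τ q)) (ptF S' τ' q')

/-- what is proved on pairs of cells for the first inequality -/
abbrev CKA (x y : Cell) : Prop := CellOK 4096 Dom Dom PA x y

theorem ckA_sound (t : Tr) (x y : Cell) (h : chk 4096 (fA.leaf 4096) nearA t x y = true) : CKA x y := by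
  refine chk_sound (fun f1 f2 x y h S τ q S' τ' q' hd hd' hx hy => ?_) (fun x y h S τ q S' τ' q' hd hd' hx hy => ?_) t x y h
  · obtain ⟨_, _, _, h3⟩ := Form.leaf_sound (by norm_num) fA_ok h hd hd' hx hy
    exact h3
  · simp only [nearA, Bool.and_eq_true] at h
    have h1 : (x.sh : ℝ) ≤ 64 := by exact_mod_cast Nat.le_of_ble_eq_true h.1
    have h2 : (y.sh : ℝ) ≤ 64 := by exact_mod_cast Nat.le_of_ble_eq_true h.2
    have a1 := hx.s2
    have a2 := hy.s2
    push_cast at a1 a2
    exact near_pt hd hd' (by linarith) (by linarith)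

end Vale.Agent.Lib.P154Q4
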