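import Vale.Agent.Lib.P154Q4.FormB

namespace Vale.Agent.Lib.P154Q4

/-- no points are treated separately for the second inequality -/
def nearB (_ _ : Cell) : Bool := false

/-- what is proved on pairs of points for the second inequality -/
def PB (S τ q S' τ' q' : ℝ) : Prop :=
  ∃ Hp : Nat, (4096 : ℝ) * S ≤ Hp ∧ 0 < Hp ∧ 0 ≤ dotR (bRBH Hp (ptF S τ q)) (ptF S' τ' q')

/-- what is proved on pairs of cells for the second inequality -/
abbrev CKB (x y : Cell) : Prop := CellOK 4096 Dom Dom PB x y

theorem ckB_sound (t : Tr) (x y : Cell) (h : chk 4096 (fB.leaf 4096) nearB t x y = true) : CKB x y := by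
  refine chk_sound (fun f1 f2 x y h S τ q S' τ' q' hd hd' hx hy => ?_) (fun x y h => ?_) t x y h
  · have := Form.leaf_sound (by norm_num) fB_ok h hd hd' hx hy
    simpa [PB] using this
  · simp [nearB] at h

end Vale.Agent.Lib.P154Q4
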