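import Vale.Agent.Lib.P154Q4.CkI0
import Vale.Agent.Lib.P154Q4.CkI1

namespace Vale.Agent.Lib.P154Q4

set_option maxRecDepth 100000

theorem rootI0 : CKI ⟨0, 49152, 0, 4096⟩ ⟨0, 0, 1194, 12800⟩ :=
  okI0

theorem rootI1 : CKI ⟨0, 49152, 4096, 12288⟩ ⟨0, 0, 1194, 12800⟩ :=
  (split1S okI1 (split2T okI2 (split1T okI3 (split2T okI4 (split1T okI5 (split2T (split1T okI6 (split2T okI7 okI8)) (split1T (split2T (split1T okI9 (split2T (split1T (split2T okI10 (split1S okI11 (split1T okI12 (split2T okI13 okI14)))) okI15) okI16)) okI17) (split2T (split1T (split2T okI18 okI19) (split2T okI20 okI21)) (split1T okI22 (split2T (split1T okI23 okI24) (split1T okI25 (split2T okI26 okI27))))))))))))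

end Vale.Agent.Lib.P154Q4
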