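import Vale.Agent.Lib.P154Q4.Leaf

namespace Vale.Agent.Lib.P154Q4

set_option maxRecDepth 100000
set_option exponentiation.threshold 1000

/-- positive part of the contraction -/
def ctPB (v : V) : V :=
  ⟨Nat.add (Nat.mul 4021829027172974592 v.a0) (Nat.add (Nat.mul 828603815593771008 v.a1) (Nat.add (Nat.mul 950279473363156992 v.a4) (Nat.add (Nat.mul 207046652872163328 v.a5) (Nat.mul 2682724205592576 v.a9)))),
   Nat.add (Nat.mul 163975124270186496 v.a3) (Nat.add (Nat.mul 888185750734503936 v.a4) (Nat.add (Nat.mul 176025090268790784 v.a5) (Nat.mul 1839136661176320 v.a9))),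
   Nat.add (Nat.mul 33313067658965760 v.a3) (Nat.add (Nat.mul 195250139567185024 v.a4) (Nat.add (Nat.mul 26481137817990792 v.a5) (Nat.mul 2062219438861256 v.a9))),
   Nat.add (Nat.mul 110788524496650240 v.a0) (Nat.add (Nat.mul 98590626910568448 v.a1) (Nat.add (Nat.mul 25016698370654208 v.a2) (Nat.add (Nat.mul 692619277565952 v.a6) (Nat.add (Nat.mul 803387267702784 v.a7) (Nat.mul 858373443108864 v.a8))))),
   Nat.add (Nat.mul 592435134875480064 v.a0) (Nat.add (Nat.mul 397259926832369664 v.a1) (Nat.add (Nat.mul 106670733690220672 v.a2) (Nat.add (Nat.mul 2357304265539344 v.a7) (Nat.mul 501795416530864 v.a9)))),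
   Nat.add (Nat.mul 161781856827805440 v.a0) (Nat.add (Nat.mul 28475026729466112 v.a1) (Nat.add (Nat.mul 12372979370923560 v.a2) (Nat.add (Nat.mul 355937637225921 v.a7) (Nat.mul 337928374996203 v.a9)))),
   Nat.add (Nat.mul 36941474135881728 v.a0) (Nat.add (Nat.mul 99364193369856 v.a3) (Nat.add (Nat.mul 16879500118161792 v.a6) (Nat.add (Nat.mul 1872122175998760 v.a7) (Nat.mul 4820752924051464 v.a8)))),
   Nat.add (Nat.mul 392748907186848 v.a3) (Nat.add (Nat.mul 2470541212269776 v.a4) (Nat.add (Nat.mul 377986106811777 v.a5) (Nat.add (Nat.mul 1982637745841256 v.a6) (Nat.mul 262333622130411 v.a8)))),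
   Nat.add (Nat.mul 305062841868768 v.a3) (Nat.add (Nat.mul 610105578562416 v.a4) (Nat.add (Nat.mul 4705377394170888 v.a6) (Nat.add (Nat.mul 239597874271587 v.a7) (Nat.mul 1349630891238141 v.a8)))),
   Nat.add (Nat.mul 968299037734656 v.a0) (Nat.add (Nat.mul 638754090045696 v.a1) (Nat.add (Nat.mul 1659263666388968 v.a2) (Nat.add (Nat.mul 192978580604272 v.a4) (Nat.add (Nat.mul 293144157551523 v.a5) (Nat.mul 27107349000485 v.a9)))))⟩

/-- negative part of the contraction -/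
def ctNB (v : V) : V :=
  ⟨Nat.add (Nat.mul 1077857594555498496 v.a2) (Nat.add (Nat.mul 13903965072654336 v.a3) (Nat.add (Nat.mul 31484445511385088 v.a6) (Nat.add (Nat.mul 22716555522932736 v.a7) (Nat.mul 36495734487515136 v.a8)))),
   Nat.add (Nat.mul 5223467825120673792 v.a0) (Nat.add (Nat.mul 4334072397771571200 v.a1) (Nat.add (Nat.mul 557475565113704448 v.a2) (Nat.add (Nat.mul 12843188252835840 v.a6) (Nat.add (Nat.mul 28844758497558528 v.a7) (Nat.mul 17979610756939776 v.a8))))),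
   Nat.add (Nat.mul 802196264490362880 v.a0) (Nat.add (Nat.mul 1265885908651726848 v.a1) (Nat.add (Nat.mul 195950153840821120 v.a2) (Nat.add (Nat.mul 109815138974943744 v.a6) (Nat.add (Nat.mul 3400940044201784 v.a7) (Nat.mul 12249795944379576 v.a8))))),
   Nat.add (Nat.mul 4204694370779136 v.a3) (Nat.add (Nat.mul 22894077627924480 v.a4) (Nat.add (Nat.mul 6364340819435520 v.a5) (Nat.mul 70654076043264 v.a9))),
   Nat.add (Nat.mul 13396952307503616 v.a3) (Nat.add (Nat.mul 165683379141379840 v.a4) (Nat.add (Nat.mul 14970821886786288 v.a5) (Nat.add (Nat.mul 11226318579755904 v.a6) (Nat.mul 617607923409744 v.a8)))),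
   Nat.add (Nat.mul 3067605501171552 v.a3) (Nat.add (Nat.mul 16367466124555824 v.a4) (Nat.add (Nat.mul 1718081605345671 v.a5) (Nat.add (Nat.mul 11394105536255832 v.a6) (Nat.mul 2240143066568637 v.a8)))),
   Nat.add (Nat.mul 43300782511552512 v.a1) (Nat.add (Nat.mul 85803022650392832 v.a2) (Nat.add (Nat.mul 5872058065511808 v.a4) (Nat.add (Nat.mul 10434659847464088 v.a5) (Nat.mul 778092849863544 v.a9)))),
   Nat.add (Nat.mul 21877870259424000 v.a0) (Nat.add (Nat.mul 3294443376241920 v.a1) (Nat.add (Nat.mul 1453150915426712 v.a2) (Nat.add (Nat.mul 65278078501951 v.a7) (Nat.mul 48208473959909 v.a9)))),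
   Nat.add (Nat.mul 12780286519603968 v.a0) (Nat.add (Nat.mul 6661611376342272 v.a1) (Nat.add (Nat.mul 9935991209007768 v.a2) (Nat.add (Nat.mul 1980410348763909 v.a5) (Nat.mul 184382486614443 v.a9)))),
   Nat.add (Nat.mul 25110205121568 v.a3) (Nat.add (Nat.mul 740900544990072 v.a6) (Nat.add (Nat.mul 42053979180077 v.a7) (Nat.mul 184382486614443 v.a8)))⟩

/-- the form over the reals -/
def bRB (x : VR) : VR :=
  ⟨(4021829027172974592 : ℝ) * x.a0 + (828603815593771008 : ℝ) * x.a1 + (-1077857594555498496 : ℝ) * x.a2 + (-13903965072654336 : ℝ) * x.a3 + (950279473363156992 : ℝ) * x.a4 + (207046652872163328 : ℝ) * x.a5 + (-31484445511385088 : ℝ) * x.a6 + (-22716555522932736 : ℝ) * x.a7 + (-36495734487515136 : ℝ) * x.a8 + (2682724205592576 : ℝ) * x.a9,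
   (-5223467825120673792 : ℝ) * x.a0 + (-4334072397771571200 : ℝ) * x.a1 + (-557475565113704448 : ℝ) * x.a2 + (163975124270186496 : ℝ) * x.a3 + (888185750734503936 : ℝ) * x.a4 + (176025090268790784 : ℝ) * x.a5 + (-12843188252835840 : ℝ) * x.a6 + (-28844758497558528 : ℝ) * x.a7 + (-17979610756939776 : ℝ) * x.a8 + (1839136661176320 : ℝ) * x.a9,
   (-802196264490362880 : ℝ) * x.a0 + (-1265885908651726848 : ℝ) * x.a1 + (-195950153840821120 : ℝ) * x.a2 + (33313067658965760 : ℝ) * x.a3 + (195250139567185024 : ℝ) * x.a4 + (26481137817990792 : ℝ) * x.a5 + (-109815138974943744 : ℝ) * x.a6 + (-3400940044201784 : ℝ) * x.a7 + (-12249795944379576 : ℝ) * x.a8 + (2062219438861256 : ℝ) * x.a9,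
   (110788524496650240 : ℝ) * x.a0 + (98590626910568448 : ℝ) * x.a1 + (25016698370654208 : ℝ) * x.a2 + (-4204694370779136 : ℝ) * x.a3 + (-22894077627924480 : ℝ) * x.a4 + (-6364340819435520 : ℝ) * x.a5 + (692619277565952 : ℝ) * x.a6 + (803387267702784 : ℝ) * x.a7 + (858373443108864 : ℝ) * x.a8 + (-70654076043264 : ℝ) * x.a9,
   (592435134875480064 : ℝ) * x.a0 + (397259926832369664 : ℝ) * x.a1 + (106670733690220672 : ℝ) * x.a2 + (-13396952307503616 : ℝ) * x.a3 + (-165683379141379840 : ℝ) * x.a4 + (-14970821886786288 : ℝ) * x.a5 + (-11226318579755904 : ℝ) * x.a6 + (2357304265539344 : ℝ) * x.a7 + (-617607923409744 : ℝ) * x.a8 + (501795416530864 : ℝ) * x.a9,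
   (161781856827805440 : ℝ) * x.a0 + (28475026729466112 : ℝ) * x.a1 + (12372979370923560 : ℝ) * x.a2 + (-3067605501171552 : ℝ) * x.a3 + (-16367466124555824 : ℝ) * x.a4 + (-1718081605345671 : ℝ) * x.a5 + (-11394105536255832 : ℝ) * x.a6 + (355937637225921 : ℝ) * x.a7 + (-2240143066568637 : ℝ) * x.a8 + (337928374996203 : ℝ) * x.a9,
   (36941474135881728 : ℝ) * x.a0 + (-43300782511552512 : ℝ) * x.a1 + (-85803022650392832 : ℝ) * x.a2 + (99364193369856 : ℝ) * x.a3 + (-5872058065511808 : ℝ) * x.a4 + (-10434659847464088 : ℝ) * x.a5 + (16879500118161792 : ℝ) * x.a6 + (1872122175998760 : ℝ) * x.a7 + (4820752924051464 : ℝ) * x.a8 + (-778092849863544 : ℝ) * x.a9,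
   (-21877870259424000 : ℝ) * x.a0 + (-3294443376241920 : ℝ) * x.a1 + (-1453150915426712 : ℝ) * x.a2 + (392748907186848 : ℝ) * x.a3 + (2470541212269776 : ℝ) * x.a4 + (377986106811777 : ℝ) * x.a5 + (1982637745841256 : ℝ) * x.a6 + (-65278078501951 : ℝ) * x.a7 + (262333622130411 : ℝ) * x.a8 + (-48208473959909 : ℝ) * x.a9,
   (-12780286519603968 : ℝ) * x.a0 + (-6661611376342272 : ℝ) * x.a1 + (-9935991209007768 : ℝ) * x.a2 + (305062841868768 : ℝ) * x.a3 + (610105578562416 : ℝ) * x.a4 + (-1980410348763909 : ℝ) * x.a5 + (4705377394170888 : ℝ) * x.a6 + (239597874271587 : ℝ) * x.a7 + (1349630891238141 : ℝ) * x.a8 + (-184382486614443 : ℝ) * x.a9,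
   (968299037734656 : ℝ) * x.a0 + (638754090045696 : ℝ) * x.a1 + (1659263666388968 : ℝ) * x.a2 + (-25110205121568 : ℝ) * x.a3 + (192978580604272 : ℝ) * x.a4 + (293144157551523 : ℝ) * x.a5 + (-740900544990072 : ℝ) * x.a6 + (-42053979180077 : ℝ) * x.a7 + (-184382486614443 : ℝ) * x.a8 + (27107349000485 : ℝ) * x.a9⟩

/-- the transposed form over the reals -/
def bTB (x : VR) : VR :=
  ⟨(4021829027172974592 : ℝ) * x.a0 + (-5223467825120673792 : ℝ) * x.a1 + (-802196264490362880 : ℝ) * x.a2 + (110788524496650240 : ℝ) * x.a3 + (592435134875480064 : ℝ) * x.a4 + (161781856827805440 : ℝ) * x.a5 + (36941474135881728 : ℝ) * x.a6 + (-21877870259424000 : ℝ) * x.a7 + (-12780286519603968 : ℝ) * x.a8 + (968299037734656 : ℝ) * x.a9,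
   (828603815593771008 : ℝ) * x.a0 + (-4334072397771571200 : ℝ) * x.a1 + (-1265885908651726848 : ℝ) * x.a2 + (98590626910568448 : ℝ) * x.a3 + (397259926832369664 : ℝ) * x.a4 + (28475026729466112 : ℝ) * x.a5 + (-43300782511552512 : ℝ) * x.a6 + (-3294443376241920 : ℝ) * x.a7 + (-6661611376342272 : ℝ) * x.a8 + (638754090045696 : ℝ) * x.a9,
   (-1077857594555498496 : ℝ) * x.a0 + (-557475565113704448 : ℝ) * x.a1 + (-195950153840821120 : ℝ) * x.a2 + (25016698370654208 : ℝ) * x.a3 + (106670733690220672 : ℝ) * x.a4 + (12372979370923560 : ℝ) * x.a5 + (-85803022650392832 : ℝ) * x.a6 + (-1453150915426712 : ℝ) * x.a7 + (-9935991209007768 : ℝ) * x.a8 + (1659263666388968 : ℝ) * x.a9,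
   (-13903965072654336 : ℝ) * x.a0 + (163975124270186496 : ℝ) * x.a1 + (33313067658965760 : ℝ) * x.a2 + (-4204694370779136 : ℝ) * x.a3 + (-13396952307503616 : ℝ) * x.a4 + (-3067605501171552 : ℝ) * x.a5 + (99364193369856 : ℝ) * x.a6 + (392748907186848 : ℝ) * x.a7 + (305062841868768 : ℝ) * x.a8 + (-25110205121568 : ℝ) * x.a9,
   (950279473363156992 : ℝ) * x.a0 + (888185750734503936 : ℝ) * x.a1 + (195250139567185024 : ℝ) * x.a2 + (-22894077627924480 : ℝ) * x.a3 + (-165683379141379840 : ℝ) * x.a4 + (-16367466124555824 : ℝ) * x.a5 + (-5872058065511808 : ℝ) * x.a6 + (2470541212269776 : ℝ) * x.a7 + (610105578562416 : ℝ) * x.a8 + (192978580604272 : ℝ) * x.a9,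
   (207046652872163328 : ℝ) * x.a0 + (176025090268790784 : ℝ) * x.a1 + (26481137817990792 : ℝ) * x.a2 + (-6364340819435520 : ℝ) * x.a3 + (-14970821886786288 : ℝ) * x.a4 + (-1718081605345671 : ℝ) * x.a5 + (-10434659847464088 : ℝ) * x.a6 + (377986106811777 : ℝ) * x.a7 + (-1980410348763909 : ℝ) * x.a8 + (293144157551523 : ℝ) * x.a9,
   (-31484445511385088 : ℝ) * x.a0 + (-12843188252835840 : ℝ) * x.a1 + (-109815138974943744 : ℝ) * x.a2 + (692619277565952 : ℝ) * x.a3 + (-11226318579755904 : ℝ) * x.a4 + (-11394105536255832 : ℝ) * x.a5 + (16879500118161792 : ℝ) * x.a6 + (1982637745841256 : ℝ) * x.a7 + (4705377394170888 : ℝ) * x.a8 + (-740900544990072 : ℝ) * x.a9,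
   (-22716555522932736 : ℝ) * x.a0 + (-28844758497558528 : ℝ) * x.a1 + (-3400940044201784 : ℝ) * x.a2 + (803387267702784 : ℝ) * x.a3 + (2357304265539344 : ℝ) * x.a4 + (355937637225921 : ℝ) * x.a5 + (1872122175998760 : ℝ) * x.a6 + (-65278078501951 : ℝ) * x.a7 + (239597874271587 : ℝ) * x.a8 + (-42053979180077 : ℝ) * x.a9,
   (-36495734487515136 : ℝ) * x.a0 + (-17979610756939776 : ℝ) * x.a1 + (-12249795944379576 : ℝ) * x.a2 + (858373443108864 : ℝ) * x.a3 + (-617607923409744 : ℝ) * x.a4 + (-2240143066568637 : ℝ) * x.a5 + (4820752924051464 : ℝ) * x.a6 + (262333622130411 : ℝ) * x.a7 + (1349630891238141 : ℝ) * x.a8 + (-184382486614443 : ℝ) * x.a9,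
   (2682724205592576 : ℝ) * x.a0 + (1839136661176320 : ℝ) * x.a1 + (2062219438861256 : ℝ) * x.a2 + (-70654076043264 : ℝ) * x.a3 + (501795416530864 : ℝ) * x.a4 + (337928374996203 : ℝ) * x.a5 + (-778092849863544 : ℝ) * x.a6 + (-48208473959909 : ℝ) * x.a7 + (-184382486614443 : ℝ) * x.a8 + (27107349000485 : ℝ) * x.a9⟩

theorem ctPB_lin : LinV ctPB := by
  constructor
  · simp only [ctPB, V.zero, Nat.add_eq, Nat.mul_eq, Nat.mul_zero, Nat.add_zero]
  · intro x y
    ext <;> simp only [ctPB, V.add, Nat.add_eq, Nat.mul_eq] <;> ring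
  · intro c x
    ext <;> simp only [ctPB, V.smul, Nat.add_eq, Nat.mul_eq] <;> ring

theorem ctNB_lin : LinV ctNB := by
  constructor
  · simp only [ctNB, V.zero, Nat.add_eq, Nat.mul_eq, Nat.mul_zero, Nat.add_zero]
  · intro x y
    ext <;> simp only [ctNB, V.add, Nat.add_eq, Nat.mul_eq] <;> ring
  · intro c x
    ext <;> simp only [ctNB, V.smul, Nat.add_eq, Nat.mul_eq] <;> ring

theorem bRB_tr (a y : VR) : dotR (bRB a) y = dotR (bTB y) a := by
  simp only [dotR, bRB, bTB]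
  ring

theorem bRB_link (v w : V) : dotR (bRB v.r) w.r = (dot (ctPB v) w : ℝ) - (dot (ctNB v) w : ℝ) := by
  simp only [dotR, bRB, V.r, dot_eq, ctPB, ctNB, Nat.add_eq, Nat.mul_eq]
  push_cast
  ring

theorem ctPB_mono {v w : V} {K : Nat} (h : Bd K v) (k : Bd K w) :
    dot (ctPB v) w ≤ dot (ctPB ⟨K, K, K, K, K, K, K, K, K, K⟩) ⟨K, K, K, K, K, K, K, K, K, K⟩ := by
  obtain ⟨h0, h1, h2, h3, h4, h5, h6, h7, h8, h9⟩ := h
  obtain ⟨k0, k1, k2, k3, k4, k5, k6, k7, k8, k9⟩ := k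
  simp only [dot_eq, ctPB, Nat.add_eq, Nat.mul_eq]
  gcongr

theorem ctNB_mono {v w : V} {K : Nat} (h : Bd K v) (k : Bd K w) :
    dot (ctNB v) w ≤ dot (ctNB ⟨K, K, K, K, K, K, K, K, K, K⟩) ⟨K, K, K, K, K, K, K, K, K, K⟩ := by
  obtain ⟨h0, h1, h2, h3, h4, h5, h6, h7, h8, h9⟩ := h
  obtain ⟨k0, k1, k2, k3, k4, k5, k6, k7, k8, k9⟩ := k
  simp only [dot_eq, ctNB, Nat.add_eq, Nat.mul_eq]
  gcongr

/-- the positive part with the parameter -/
def ctPBH (H : Nat) (v : V) : V :=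
  let u := ctPB v
  ⟨Nat.mul H u.a0, Nat.mul H u.a1, Nat.add (Nat.mul H u.a2) (Nat.mul 246008274225066934272 v.a0), Nat.mul H u.a3, Nat.mul H u.a4,
    Nat.mul H u.a5, Nat.mul H u.a6, Nat.mul H u.a7, Nat.mul H u.a8, Nat.mul H u.a9⟩

/-- the negative part with the parameter -/
def ctNBH (H : Nat) (v : V) : V :=
  let u := ctNB v
  ⟨Nat.mul H u.a0, Nat.mul H u.a1, Nat.mul H u.a2, Nat.mul H u.a3, Nat.mul H u.a4,
    Nat.mul H u.a5, Nat.mul H u.a6, Nat.mul H u.a7, Nat.mul H u.a8, Nat.mul H u.a9⟩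

/-- the form for the second inequality -/
def fB : Form := ⟨296, ctPBH, ctNBH⟩

/-- the form with the parameter, over the reals -/
def bRBH (H : Nat) (x : VR) : VR :=
  let u := bRB x
  ⟨H * u.a0, H * u.a1, H * u.a2 + (246008274225066934272 : ℝ) * x.a0, H * u.a3, H * u.a4, H * u.a5, H * u.a6, H * u.a7, H * u.a8, H * u.a9⟩

/-- the transposed form with the parameter, over the reals -/
def bTBH (H : Nat) (x : VR) : VR :=
  let u := bTB x
  ⟨H * u.a0 + (246008274225066934272 : ℝ) * x.a2, H * u.a1, H * u.a2, H * u.a3, H * u.a4, H * u.a5, H * u.a6, H * u.a7, H * u.a8, H * u.a9⟩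

theorem ctPBH_lin (H : Nat) : LinV (ctPBH H) := by
  have h := ctPB_lin
  constructor
  · simp only [ctPBH, h.zero]
    simp [V.zero]
  · intro x y
    simp only [ctPBH, h.add]
    ext <;> simp only [V.add, Nat.add_eq, Nat.mul_eq] <;> ring
  · intro c x
    simp only [ctPBH, h.smul]
    ext <;> simp only [V.smul, Nat.add_eq, Nat.mul_eq] <;> ring

theorem ctNBH_lin (H : Nat) : LinV (ctNBH H) := by
  have h := ctNB_lin
  constructor
  · simp only [ctNBH, h.zero]
    simp [V.zero]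
  · intro x y
    simp only [ctNBH, h.add]
    ext <;> simp only [V.add, Nat.add_eq, Nat.mul_eq] <;> ring
  · intro c x
    simp only [ctNBH, h.smul]
    ext <;> simp only [V.smul, Nat.add_eq, Nat.mul_eq] <;> ring

theorem bRBH_tr (H : Nat) (a y : VR) : dotR (bRBH H a) y = dotR (bTBH H y) a := by
  have := bRB_tr a y
  simp only [dotR] at this
  simp only [dotR, bRBH, bTBH]
  linear_combination (H : ℝ) * this

theorem dot_PBH (H : Nat) (v w : V) : dot (ctPBH H v) w = H * dot (ctPB v) w + 246008274225066934272 * (v.a0 * w.a2) := by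
  simp only [dot_eq, ctPBH, Nat.add_eq, Nat.mul_eq]
  ring

theorem dot_NBH (H : Nat) (v w : V) : dot (ctNBH H v) w = H * dot (ctNB v) w := by
  simp only [dot_eq, ctNBH, Nat.mul_eq]
  ring

theorem bRBH_link (H : Nat) (v w : V) : dotR (bRBH H v.r) w.r = (dot (ctPBH H v) w : ℝ) - (dot (ctNBH H v) w : ℝ) := by
  have := bRB_link v w
  simp only [dotR] at this
  rw [dot_PBH, dot_NBH]
  simp only [dotR, bRBH]
  push_cast
  simp only [V.r] at this ⊢
  linear_combination (H : ℝ) * this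

theorem vmB_P : 13 * 4096 * dot (ctPB ⟨8388608 * 4096 ^ 7, 8388608 * 4096 ^ 7, 8388608 * 4096 ^ 7, 8388608 * 4096 ^ 7, 8388608 * 4096 ^ 7, 8388608 * 4096 ^ 7, 8388608 * 4096 ^ 7, 8388608 * 4096 ^ 7, 8388608 * 4096 ^ 7, 8388608 * 4096 ^ 7⟩) ⟨8388608 * 4096 ^ 7, 8388608 * 4096 ^ 7, 8388608 * 4096 ^ 7, 8388608 * 4096 ^ 7, 8388608 * 4096 ^ 7, 8388608 * 4096 ^ 7, 8388608 * 4096 ^ 7, 8388608 * 4096 ^ 7, 8388608 * 4096 ^ 7, 8388608 * 4096 ^ 7⟩ + 246008274225066934272 * ((8388608 * 4096 ^ 7) * (8388608 * 4096 ^ 7)) < 2 ^ (296 - 1) := by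
  decide +kernel

theorem vmB_N : 13 * 4096 * dot (ctNB ⟨8388608 * 4096 ^ 7, 8388608 * 4096 ^ 7, 8388608 * 4096 ^ 7, 8388608 * 4096 ^ 7, 8388608 * 4096 ^ 7, 8388608 * 4096 ^ 7, 8388608 * 4096 ^ 7, 8388608 * 4096 ^ 7, 8388608 * 4096 ^ 7, 8388608 * 4096 ^ 7⟩) ⟨8388608 * 4096 ^ 7, 8388608 * 4096 ^ 7, 8388608 * 4096 ^ 7, 8388608 * 4096 ^ 7, 8388608 * 4096 ^ 7, 8388608 * 4096 ^ 7, 8388608 * 4096 ^ 7, 8388608 * 4096 ^ 7, 8388608 * 4096 ^ 7, 8388608 * 4096 ^ 7⟩ < 2 ^ (296 - 1) := by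
  decide +kernel

theorem fB_ok : fB.OK 4096 bRBH bTBH where
  hb := by decide
  linP := ctPBH_lin
  linN := ctNBH_lin
  tr := bRBH_tr
  link := bRBH_link
  bdP := by
    intro H hH v w h k
    refine lt_of_le_of_lt ?_ vmB_P
    show dot (ctPBH H v) w ≤ _
    rw [dot_PBH]
    have h1 := ctPB_mono h k
    have h2 : v.a0 * w.a2 ≤ (8388608 * 4096 ^ 7) * (8388608 * 4096 ^ 7) := Nat.mul_le_mul h.a0 k.a2
    gcongr
  bdN := by
    intro H hH v w h k
    refine lt_of_le_of_lt ?_ vmB_N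
    show dot (ctNBH H v) w ≤ _
    rw [dot_NBH]
    have h1 := ctNB_mono h k
    gcongr

end Vale.Agent.Lib.P154Q4
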