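import Vale.Agent.Lib.P154Q4.DHull

namespace Vale.Agent.Lib.P154Q4

set_option maxRecDepth 100000
set_option exponentiation.threshold 1000

/-- positive part of the contraction -/
def ctPI (v : V) : V :=
  ⟨0,
   Nat.add (Nat.mul 1568736 v.a0) (Nat.mul 393216 v.a4),
   Nat.add (Nat.mul 26785152 v.a0) (Nat.mul 786432 v.a4),
   Nat.mul 8544084 v.a2,
   Nat.add (Nat.mul 40122096 v.a0) (Nat.add (Nat.mul 274956 v.a5) (Nat.mul 2203 v.a7)),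
   Nat.add (Nat.mul 575048 v.a2) (Nat.mul 340392 v.a4),
   0,
   0,
   0,
   0⟩

/-- negative part of the contraction -/
def ctNI (v : V) : V :=
  ⟨Nat.mul 278088 v.a0,
   Nat.add (Nat.mul 393216 v.a2) (Nat.mul 55296 v.a5),
   Nat.add (Nat.mul 3821484 v.a2) (Nat.mul 110592 v.a5),
   Nat.add (Nat.mul 60851904 v.a0) (Nat.add (Nat.mul 323856 v.a4) (Nat.mul 165888 v.a5)),
   Nat.add (Nat.mul 5005476 v.a2) (Nat.mul 753136 v.a4),
   Nat.add (Nat.mul 7087608 v.a0) (Nat.add (Nat.mul 54688 v.a5) (Nat.add (Nat.mul 890 v.a7) (Nat.mul 4184 v.a8))),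
   0,
   0,
   0,
   0⟩

/-- the form over the reals -/
def bRI (x : VR) : VR :=
  ⟨(-278088 : ℝ) * x.a0,
   (1568736 : ℝ) * x.a0 + (-393216 : ℝ) * x.a2 + (393216 : ℝ) * x.a4 + (-55296 : ℝ) * x.a5,
   (26785152 : ℝ) * x.a0 + (-3821484 : ℝ) * x.a2 + (786432 : ℝ) * x.a4 + (-110592 : ℝ) * x.a5,
   (-60851904 : ℝ) * x.a0 + (8544084 : ℝ) * x.a2 + (-323856 : ℝ) * x.a4 + (-165888 : ℝ) * x.a5,
   (40122096 : ℝ) * x.a0 + (-5005476 : ℝ) * x.a2 + (-753136 : ℝ) * x.a4 + (274956 : ℝ) * x.a5 + (2203 : ℝ) * x.a7,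
   (-7087608 : ℝ) * x.a0 + (575048 : ℝ) * x.a2 + (340392 : ℝ) * x.a4 + (-54688 : ℝ) * x.a5 + (-890 : ℝ) * x.a7 + (-4184 : ℝ) * x.a8,
   0,
   0,
   0,
   0⟩

/-- the transposed form over the reals -/
def bTI (x : VR) : VR :=
  ⟨(-278088 : ℝ) * x.a0 + (1568736 : ℝ) * x.a1 + (26785152 : ℝ) * x.a2 + (-60851904 : ℝ) * x.a3 + (40122096 : ℝ) * x.a4 + (-7087608 : ℝ) * x.a5,
   0,
   (-393216 : ℝ) * x.a1 + (-3821484 : ℝ) * x.a2 + (8544084 : ℝ) * x.a3 + (-5005476 : ℝ) * x.a4 + (575048 : ℝ) * x.a5,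
   0,
   (393216 : ℝ) * x.a1 + (786432 : ℝ) * x.a2 + (-323856 : ℝ) * x.a3 + (-753136 : ℝ) * x.a4 + (340392 : ℝ) * x.a5,
   (-55296 : ℝ) * x.a1 + (-110592 : ℝ) * x.a2 + (-165888 : ℝ) * x.a3 + (274956 : ℝ) * x.a4 + (-54688 : ℝ) * x.a5,
   0,
   (2203 : ℝ) * x.a4 + (-890 : ℝ) * x.a5,
   (-4184 : ℝ) * x.a5,
   0⟩

theorem ctPI_lin : LinV ctPI := by
  constructor
  · simp only [ctPI, V.zero, Nat.add_eq, Nat.mul_eq, Nat.mul_zero, Nat.add_zero]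
  · intro x y
    ext <;> simp only [ctPI, V.add, Nat.add_eq, Nat.mul_eq] <;> ring
  · intro c x
    ext <;> simp only [ctPI, V.smul, Nat.add_eq, Nat.mul_eq] <;> ring

theorem ctNI_lin : LinV ctNI := by
  constructor
  · simp only [ctNI, V.zero, Nat.add_eq, Nat.mul_eq, Nat.mul_zero, Nat.add_zero]
  · intro x y
    ext <;> simp only [ctNI, V.add, Nat.add_eq, Nat.mul_eq] <;> ring
  · intro c x
    ext <;> simp only [ctNI, V.smul, Nat.add_eq, Nat.mul_eq] <;> ring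

theorem bRI_tr (a y : VR) : dotR (bRI a) y = dotR (bTI y) a := by
  simp only [dotR, bRI, bTI]
  ring

theorem bRI_link (v w : V) : dotR (bRI v.r) w.r = (dot (ctPI v) w : ℝ) - (dot (ctNI v) w : ℝ) := by
  simp only [dotR, bRI, V.r, dot_eq, ctPI, ctNI, Nat.add_eq, Nat.mul_eq]
  push_cast
  ring

theorem ctPI_mono {v w : V} {K : Nat} (h : Bd K v) (k : Bd K w) :
    dot (ctPI v) w ≤ dot (ctPI ⟨K, K, K, K, K, K, K, K, K, K⟩) ⟨K, K, K, K, K, K, K, K, K, K⟩ := by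
  obtain ⟨h0, h1, h2, h3, h4, h5, h6, h7, h8, h9⟩ := h
  obtain ⟨k0, k1, k2, k3, k4, k5, k6, k7, k8, k9⟩ := k
  simp only [dot_eq, ctPI, Nat.add_eq, Nat.mul_eq]
  gcongr

theorem ctNI_mono {v w : V} {K : Nat} (h : Bd K v) (k : Bd K w) :
    dot (ctNI v) w ≤ dot (ctNI ⟨K, K, K, K, K, K, K, K, K, K⟩) ⟨K, K, K, K, K, K, K, K, K, K⟩ := by
  obtain ⟨h0, h1, h2, h3, h4, h5, h6, h7, h8, h9⟩ := h
  obtain ⟨k0, k1, k2, k3, k4, k5, k6, k7, k8, k9⟩ := k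
  simp only [dot_eq, ctNI, Nat.add_eq, Nat.mul_eq]
  gcongr

/-- the form for the inequality in the third variable -/
def fI : Form := ⟨243, fun _ v => ctPI v, fun _ v => ctNI v⟩

theorem vmI_P : dot (ctPI ⟨8388608 * 4096 ^ 7, 8388608 * 4096 ^ 7, 8388608 * 4096 ^ 7, 8388608 * 4096 ^ 7, 8388608 * 4096 ^ 7, 8388608 * 4096 ^ 7, 8388608 * 4096 ^ 7, 8388608 * 4096 ^ 7, 8388608 * 4096 ^ 7, 8388608 * 4096 ^ 7⟩) ⟨8388608 * 4096 ^ 7, 8388608 * 4096 ^ 7, 8388608 * 4096 ^ 7, 8388608 * 4096 ^ 7, 8388608 * 4096 ^ 7, 8388608 * 4096 ^ 7, 8388608 * 4096 ^ 7, 8388608 * 4096 ^ 7, 8388608 * 4096 ^ 7, 8388608 * 4096 ^ 7⟩ < 2 ^ (243 - 1) := by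
  decide +kernel

theorem vmI_N : dot (ctNI ⟨8388608 * 4096 ^ 7, 8388608 * 4096 ^ 7, 8388608 * 4096 ^ 7, 8388608 * 4096 ^ 7, 8388608 * 4096 ^ 7, 8388608 * 4096 ^ 7, 8388608 * 4096 ^ 7, 8388608 * 4096 ^ 7, 8388608 * 4096 ^ 7, 8388608 * 4096 ^ 7⟩) ⟨8388608 * 4096 ^ 7, 8388608 * 4096 ^ 7, 8388608 * 4096 ^ 7, 8388608 * 4096 ^ 7, 8388608 * 4096 ^ 7, 8388608 * 4096 ^ 7, 8388608 * 4096 ^ 7, 8388608 * 4096 ^ 7, 8388608 * 4096 ^ 7, 8388608 * 4096 ^ 7⟩ < 2 ^ (243 - 1) := by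
  decide +kernel

theorem fI_ok : fI.OK 4096 (fun _ => bRI) (fun _ => bTI) where
  hb := by decide
  linP := fun _ => ctPI_lin
  linN := fun _ => ctNI_lin
  tr := fun _ a y => bRI_tr a y
  link := fun _ v w => bRI_link v w
  bdP := fun _ _ _ _ h k => lt_of_le_of_lt (ctPI_mono h k) vmI_P
  bdN := fun _ _ _ _ h k => lt_of_le_of_lt (ctNI_mono h k) vmI_N

/-- what is proved on pairs of points for the inequality in the third variable -/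
def PI (S τ q _S' D _q' : ℝ) : Prop := (1 < D → 2304 * (D - 1) ^ 2 ≤ 867 * S) → 0 ≤ dotR (bRI (ptF S τ q)) (ptD D)

/-- what is proved on pairs of cells for the inequality in the third variable -/
abbrev CKI (x y : Cell) : Prop := CellOK 4096 Dom (fun _ _ _ => True) PI x y

theorem ckI_sound (t : Tr) (x y : Cell) (h : chk 4096 (leafI fI 4096) (fun _ _ => false) t x y = true) : CKI x y := by
  refine chk_sound (fun f1 f2 x y h S τ q S' τ' q' hd _ hx hy => ?_) (fun x y h S τ q S' τ' q' _ _ _ _ => ?_) t x y h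
  · intro hc
    exact leafI_sound (by norm_num) fI_ok h hd hx hy hc
  · exact absurd h (by simp)

end Vale.Agent.Lib.P154Q4
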