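import Vale.Agent.Lib.P154Q4.FormA

namespace Vale.Agent.Lib.P154Q4

theorem abs_mul_ge {x y X Y : ℝ} (hx : |x| ≤ X) (hy : |y| ≤ Y) : -(X * Y) ≤ x * y := by
  have h0 : 0 ≤ X := le_trans (abs_nonneg _) hx
  have h1 : |x * y| ≤ X * Y := by
    rw [abs_mul]
    exact mul_le_mul hx hy (abs_nonneg _) h0
  have := (abs_le.1 h1).1
  linarith

theorem lin_lb {a A b1 B1 b2 B2 b3 B3 b4 B4 b5 B5 b6 B6 b7 B7 : ℝ} (h : a ≤ A) (h1 : b1 ≤ B1) (h2 : b2 ≤ B2)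
    (h3 : b3 ≤ B3) (h4 : b4 ≤ B4) (h5 : b5 ≤ B5) (h6 : b6 ≤ B6) (h7 : b7 ≤ B7)
    (hc : 0 ≤ a + b1 + b2 + b3 + b4 + b5 + b6 + b7) : 0 ≤ A + B1 + B2 + B3 + B4 + B5 + B6 + B7 := by
  linarith

set_option maxHeartbeats 4000000 in
theorem near_core {S t k S2 t2 k2 : ℝ} (h0 : 0 ≤ S) (h1 : S ≤ 1 / 64) (h2 : |t| ≤ 1 / 13) (h3 : 0 ≤ k) (h4 : k ≤ 7 / 12)
    (h0' : 0 ≤ S2) (h1' : S2 ≤ 1 / 64) (h2' : |t2| ≤ 1 / 13) (h3' : 0 ≤ k2) (h4' : k2 ≤ 7 / 12) :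
    0 ≤ S * ((1) * ((1573733007360 : ℝ) * (1) + (146193776640 : ℝ) * (t2) + (11028857082048 : ℝ) * (S2) + (-19356453396288 : ℝ) * (k2*S2) + (23208618960 : ℝ) * (S2*t2) + (-490991227776 : ℝ) * (S2^2) + (841699247616 : ℝ) * (S2*(k2*S2))) + (k) * ((-4038603079680 : ℝ) * (t2) + (-21505412237148 : ℝ) * (S2) + (31480393236480 : ℝ) * (k2*S2) + (3129629736960 : ℝ) * (S2*t2) + (841699247616 : ℝ) * (S2^2) + (-1870442772480 : ℝ) * (S2*(k2*S2))) + (t) * ((182742220800 : ℝ) * (t2) + (631259266680 : ℝ) * (S2) + (4418300805120 : ℝ) * (k2*S2) + (260802478080 : ℝ) * (S2*t2) + (124696184832 : ℝ) * (S2^2) + (-332523159552 : ℝ) * (S2*t2^2) + (-498784739328 : ℝ) * (S2*(k2*S2)) + (40891881600 : ℝ) * (S2^2*t2)) + (S) * ((-978584592384 : ℝ) * (S2) + (1677573586944 : ℝ) * (k2*S2) + (176041672704 : ℝ) * (S2*t2) + (147427260192 : ℝ) * (S2^2) + (69275658240 :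 ℝ) * (S2*t2^2) + (-288359927424 : ℝ) * (S2*(k2*S2)) + (16867901160 : ℝ) * (S2^2*t2) + (-42936475680 : ℝ) * (S2*t2*(k2*S2))) + (t^2) * ((-469444460544 : ℝ) * (S2*t2) + (69275658240 : ℝ) * (S2^2) + (64657281024 : ℝ) * (S2*t2^2) + (-166261579776 : ℝ) * (S2*(k2*S2)) + (-44981069760 : ℝ) * (S2^2*t2) + (114497268480 : ℝ) * (S2*t2*(k2*S2))) + (k*S) * ((1677573586944 : ℝ) * (S2) + (-3727941304320 : ℝ) * (k2*S2) + (-704166690816 : ℝ) * (S2*t2) + (-288359927424 : ℝ) * (S2^2) + (-166261579776 : ℝ) * (S2*t2^2) + (529958785536 : ℝ) * (S2*(k2*S2)) + (6133782240 : ℝ) * (S2^2*t2) + (73605386880 : ℝ) * (S2*t2*(k2*S2))) + (S*t) * ((81500774400 : ℝ) * (S2*t2) + (23813507520 : ℝ) * (S2^2) + (-63502686720 : ℝ) * (S2*t2^2) + (8659457280 : ℝ) * (S2*(k2*S2)) + (-143888308380 : ℝ) * (S2^2*t2) + (236150616240 : ℝ) * (S2*t2*(k2*S2))) + (t*k*S) * ((-60616200960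 : ℝ) * (S2^2) + (161643202560 : ℝ) * (S2*t2^2) + (103913487360 : ℝ) * (S2*(k2*S2)) + (236150616240 : ℝ) * (S2^2*t2) + (-437543133120 : ℝ) * (S2*t2*(k2*S2))))
      + S2 * ((1) * ((3844439470080 : ℝ) + t * (601907189760 : ℝ)) + (k2) * ((0 : ℝ) + t * (-8452589137920 : ℝ)) + (t2) * ((0 : ℝ) + t * (2182183234560 : ℝ)) + (S2) * ((0 : ℝ) + t * (0 : ℝ)) + (t2^2) * ((0 : ℝ) + t * (0 : ℝ)) + (k2*S2) * ((0 : ℝ) + t * (0 : ℝ)) + (S2*t2) * ((0 : ℝ) + t * (0 : ℝ)) + (t2*k2*S2) * ((0 : ℝ) + t * (0 : ℝ))) := by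
  have aS : |S| ≤ 1 / 64 := by rw [abs_of_nonneg h0]; exact h1
  have aS2 : |S2| ≤ 1 / 64 := by rw [abs_of_nonneg h0']; exact h1'
  have ak : |k| ≤ 7 / 12 := by rw [abs_of_nonneg h3]; exact h4
  have ak2 : |k2| ≤ 7 / 12 := by rw [abs_of_nonneg h3']; exact h4'
  have mul2 : ∀ {x y X Y : ℝ}, |x| ≤ X → |y| ≤ Y → |x * y| ≤ X * Y := fun hx hy => by
    rw [abs_mul]
    exact mul_le_mul hx hy (abs_nonneg _) (le_trans (abs_nonneg _) hx)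
  have pw2 : ∀ {x X : ℝ}, |x| ≤ X → |x ^ 2| ≤ X * X := fun hx => by
    rw [pow_two]
    exact mul2 hx hx
  have zt2 : |t ^ 2| ≤ 1 / 13 * (1 / 13) := pw2 h2
  have zkS : |k * S| ≤ 7 / 12 * (1 / 64) := mul2 ak aS
  have zSt : |S * t| ≤ 1 / 64 * (1 / 13) := mul2 aS h2
  have ztkS : |t * k * S| ≤ 1 / 13 * (7 / 12) * (1 / 64) := mul2 (mul2 h2 ak) aS
  have gkS : |k2 * S2| ≤ 7 / 12 * (1 / 64) := mul2 ak2 aS2
  have gSt : |S2 * t2| ≤ 1 / 64 * (1 / 13) := mul2 aS2 h2'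
  have gS2 : |S2 ^ 2| ≤ 1 / 64 * (1 / 64) := pw2 aS2
  have gt2 : |t2 ^ 2| ≤ 1 / 13 * (1 / 13) := pw2 h2'
  have gSt2 : |S2 * t2 ^ 2| ≤ 1 / 64 * (1 / 13 * (1 / 13)) := mul2 aS2 gt2
  have gSkS : |S2 * (k2 * S2)| ≤ 1 / 64 * (7 / 12 * (1 / 64)) := mul2 aS2 gkS
  have gS2t : |S2 ^ 2 * t2| ≤ 1 / 64 * (1 / 64) * (1 / 13) := mul2 gS2 h2'
  have gStkS : |S2 * t2 * (k2 * S2)| ≤ 1 / 64 * (1 / 13) * (7 / 12 * (1 / 64)) := mul2 gSt gkS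
  have a1 := abs_le.1 h2'
  have a2 := abs_le.1 aS2
  have a3 := abs_le.1 gkS
  have a4 := abs_le.1 gSt
  have a5 := abs_le.1 gS2
  have a6 := abs_le.1 gSt2
  have a7 := abs_le.1 gSkS
  have a8 := abs_le.1 gS2t
  have a9 := abs_le.1 gStkS
  have t1 := abs_le.1 h2
  have R0 : |(146193776640 : ℝ) * (t2) + (11028857082048 : ℝ) * (S2) + (-19356453396288 : ℝ) * (k2*S2) + (23208618960 : ℝ) * (S2*t2) + (-490991227776 : ℝ) * (S2^2) + (841699247616 : ℝ) * (S2*(k2*S2))| ≤ (74935163958003 / 208 : ℝ) := by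
    rw [abs_le]
    constructor <;> linarith [a1.1, a1.2, a2.1, a2.2, a3.1, a3.2, a4.1, a4.2, a5.1, a5.2, a6.1, a6.2, a7.1, a7.2, a8.1, a8.2, a9.1, a9.2]
  have R1 : |(-4038603079680 : ℝ) * (t2) + (-21505412237148 : ℝ) * (S2) + (31480393236480 : ℝ) * (k2*S2) + (3129629736960 : ℝ) * (S2*t2) + (841699247616 : ℝ) * (S2^2) + (-1870442772480 : ℝ) * (S2*(k2*S2))| ≤ (195072374860119 / 208 : ℝ) := by
    rw [abs_le]
    constructor <;> linarith [a1.1, a1.2, a2.1, a2.2, a3.1, a3.2, a4.1, a4.2, a5.1, a5.2, a6.1, a6.2, a7.1, a7.2, a8.1, a8.2, a9.1, a9.2]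
  have R2 : |(182742220800 : ℝ) * (t2) + (631259266680 : ℝ) * (S2) + (4418300805120 : ℝ) * (k2*S2) + (260802478080 : ℝ) * (S2*t2) + (124696184832 : ℝ) * (S2^2) + (-332523159552 : ℝ) * (S2*t2^2) + (-498784739328 : ℝ) * (S2*(k2*S2)) + (40891881600 : ℝ) * (S2^2*t2)| ≤ (349562006280441 / 5408 : ℝ) := by
    rw [abs_le]
    constructor <;> linarith [a1.1, a1.2, a2.1, a2.2, a3.1, a3.2, a4.1, a4.2, a5.1, a5.2, a6.1, a6.2, a7.1, a7.2, a8.1, a8.2, a9.1, a9.2]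
  have R3 : |(-978584592384 : ℝ) * (S2) + (1677573586944 : ℝ) * (k2*S2) + (176041672704 : ℝ) * (S2*t2) + (147427260192 : ℝ) * (S2^2) + (69275658240 : ℝ) * (S2*t2^2) + (-288359927424 : ℝ) * (S2*(k2*S2)) + (16867901160 : ℝ) * (S2^2*t2) + (-42936475680 : ℝ) * (S2*t2*(k2*S2))| ≤ (1335845611900485 / 43264 : ℝ) := by
    rw [abs_le]
    constructor <;> linarith [a1.1, a1.2, a2.1, a2.2, a3.1, a3.2, a4.1, a4.2, a5.1, a5.2, a6.1, a6.2, a7.1, a7.2, a8.1, a8.2, a9.1, a9.2]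
  have R4 : |(-469444460544 : ℝ) * (S2*t2) + (69275658240 : ℝ) * (S2^2) + (64657281024 : ℝ) * (S2*t2^2) + (-166261579776 : ℝ) * (S2*(k2*S2)) + (-44981069760 : ℝ) * (S2^2*t2) + (114497268480 : ℝ) * (S2*t2*(k2*S2))| ≤ (3314586632811 / 5408 : ℝ) := by
    rw [abs_le]
    constructor <;> linarith [a1.1, a1.2, a2.1, a2.2, a3.1, a3.2, a4.1, a4.2, a5.1, a5.2, a6.1, a6.2, a7.1, a7.2, a8.1, a8.2, a9.1, a9.2]
  have R5 : |(1677573586944 : ℝ) * (S2) + (-3727941304320 : ℝ) * (k2*S2) + (-704166690816 : ℝ) * (S2*t2) + (-288359927424 : ℝ) * (S2^2) + (-166261579776 : ℝ) * (S2*t2^2) + (529958785536 : ℝ) * (S2*(k2*S2)) + (6133782240 : ℝ) * (S2^2*t2) + (73605386880 : ℝ) * (S2*t2*(k2*S2))| ≤ (41370687036135 / 676 : ℝ) := by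
    rw [abs_le]
    constructor <;> linarith [a1.1, a1.2, a2.1, a2.2, a3.1, a3.2, a4.1, a4.2, a5.1, a5.2, a6.1, a6.2, a7.1, a7.2, a8.1, a8.2, a9.1, a9.2]
  have R6 : |(81500774400 : ℝ) * (S2*t2) + (23813507520 : ℝ) * (S2^2) + (-63502686720 : ℝ) * (S2*t2^2) + (8659457280 : ℝ) * (S2*(k2*S2)) + (-143888308380 : ℝ) * (S2^2*t2) + (236150616240 : ℝ) * (S2*t2*(k2*S2))| ≤ (10051541754255 / 86528 : ℝ) := by
    rw [abs_le]
    constructor <;> linarith [a1.1, a1.2, a2.1, a2.2, a3.1, a3.2, a4.1, a4.2, a5.1, a5.2, a6.1, a6.2, a7.1, a7.2, a8.1, a8.2, a9.1, a9.2]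
  have R7 : |(-60616200960 : ℝ) * (S2^2) + (161643202560 : ℝ) * (S2*t2^2) + (103913487360 : ℝ) * (S2*(k2*S2)) + (236150616240 : ℝ) * (S2^2*t2) + (-437543133120 : ℝ) * (S2*t2*(k2*S2))| ≤ (1163169822675 / 21632 : ℝ) := by
    rw [abs_le]
    constructor <;> linarith [a1.1, a1.2, a2.1, a2.2, a3.1, a3.2, a4.1, a4.2, a5.1, a5.2, a6.1, a6.2, a7.1, a7.2, a8.1, a8.2, a9.1, a9.2]
  have P1 := abs_mul_ge ak R1
  have P2 := abs_mul_ge h2 R2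
  have P3 := abs_mul_ge aS R3
  have P4 := abs_mul_ge zt2 R4
  have P5 := abs_mul_ge zkS R5
  have P6 := abs_mul_ge zSt R6
  have P7 := abs_mul_ge ztkS R7
  have L1 : |(0 : ℝ) + t * (-8452589137920 : ℝ)| ≤ (8452589137920 / 13 : ℝ) := by
    rw [abs_le]
    constructor <;> linarith [t1.1, t1.2]
  have L2 : |(0 : ℝ) + t * (2182183234560 : ℝ)| ≤ (2182183234560 / 13 : ℝ) := by
    rw [abs_le]
    constructor <;> linarith [t1.1, t1.2]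
  have L3 : |(0 : ℝ) + t * (0 : ℝ)| ≤ (0 : ℝ) := by
    rw [abs_le]
    constructor <;> linarith [t1.1, t1.2]
  have L4 : |(0 : ℝ) + t * (0 : ℝ)| ≤ (0 : ℝ) := by
    rw [abs_le]
    constructor <;> linarith [t1.1, t1.2]
  have L5 : |(0 : ℝ) + t * (0 : ℝ)| ≤ (0 : ℝ) := by
    rw [abs_le]
    constructor <;> linarith [t1.1, t1.2]
  have L6 : |(0 : ℝ) + t * (0 : ℝ)| ≤ (0 : ℝ) := by
    rw [abs_le]
    constructor <;> linarith [t1.1, t1.2]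
  have L7 : |(0 : ℝ) + t * (0 : ℝ)| ≤ (0 : ℝ) := by
    rw [abs_le]
    constructor <;> linarith [t1.1, t1.2]
  have Q1 := abs_mul_ge ak2 L1
  have Q2 := abs_mul_ge h2' L2
  have Q3 := abs_mul_ge aS2 L3
  have Q4 := abs_mul_ge gt2 L4
  have Q5 := abs_mul_ge gkS L5
  have Q6 := abs_mul_ge gSt L6
  have Q7 := abs_mul_ge (mul2 (mul2 h2' ak2) aS2) L7
  have R0' := (abs_le.1 R0).1
  have A1 : (1573733007360 : ℝ) - (74935163958003 / 208 : ℝ) ≤ (1) * ((1573733007360 : ℝ) * (1) + (146193776640 : ℝ) * (t2) + (11028857082048 : ℝ) * (S2) + (-19356453396288 : ℝ) * (k2*S2) + (23208618960 : ℝ) * (S2*t2) + (-490991227776 : ℝ) * (S2^2) + (841699247616 : ℝ) * (S2*(k2*S2))) := by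
    have e : (1 : ℝ) * ((1573733007360 : ℝ) * (1) + (146193776640 : ℝ) * (t2) + (11028857082048 : ℝ) * (S2) + (-19356453396288 : ℝ) * (k2*S2) + (23208618960 : ℝ) * (S2*t2) + (-490991227776 : ℝ) * (S2^2) + (841699247616 : ℝ) * (S2*(k2*S2))) = (1573733007360 : ℝ) + ((146193776640 : ℝ) * (t2) + (11028857082048 : ℝ) * (S2) + (-19356453396288 : ℝ) * (k2*S2) + (23208618960 : ℝ) * (S2*t2) + (-490991227776 : ℝ) * (S2^2) + (841699247616 : ℝ) * (S2*(k2*S2))) := by ring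
    rw [e]
    linarith [R0']
  have U1 : 0 ≤ (1) * ((1573733007360 : ℝ) * (1) + (146193776640 : ℝ) * (t2) + (11028857082048 : ℝ) * (S2) + (-19356453396288 : ℝ) * (k2*S2) + (23208618960 : ℝ) * (S2*t2) + (-490991227776 : ℝ) * (S2^2) + (841699247616 : ℝ) * (S2*(k2*S2))) + (k) * ((-4038603079680 : ℝ) * (t2) + (-21505412237148 : ℝ) * (S2) + (31480393236480 : ℝ) * (k2*S2) + (3129629736960 : ℝ) * (S2*t2) + (841699247616 : ℝ) * (S2^2) + (-1870442772480 : ℝ) * (S2*(k2*S2))) + (t) * ((182742220800 : ℝ) * (t2) + (631259266680 : ℝ) * (S2) + (4418300805120 : ℝ) * (k2*S2) + (260802478080 : ℝ) * (S2*t2) + (124696184832 : ℝ) * (S2^2) + (-332523159552 : ℝ) * (S2*t2^2) + (-498784739328 : ℝ) * (S2*(k2*S2)) + (40891881600 : ℝ) * (S2^2*t2)) + (S) * ((-978584592384 : ℝ) * (S2) + (1677573586944 : ℝ) * (k2*S2) + (176041672704 : ℝ) * (S2*t2) + (147427260192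 : ℝ) * (S2^2) + (69275658240 : ℝ) * (S2*t2^2) + (-288359927424 : ℝ) * (S2*(k2*S2)) + (16867901160 : ℝ) * (S2^2*t2) + (-42936475680 : ℝ) * (S2*t2*(k2*S2))) + (t^2) * ((-469444460544 : ℝ) * (S2*t2) + (69275658240 : ℝ) * (S2^2) + (64657281024 : ℝ) * (S2*t2^2) + (-166261579776 : ℝ) * (S2*(k2*S2)) + (-44981069760 : ℝ) * (S2^2*t2) + (114497268480 : ℝ) * (S2*t2*(k2*S2))) + (k*S) * ((1677573586944 : ℝ) * (S2) + (-3727941304320 : ℝ) * (k2*S2) + (-704166690816 : ℝ) * (S2*t2) + (-288359927424 : ℝ) * (S2^2) + (-166261579776 : ℝ) * (S2*t2^2) + (529958785536 : ℝ) * (S2*(k2*S2)) + (6133782240 : ℝ) * (S2^2*t2) + (73605386880 : ℝ) * (S2*t2*(k2*S2))) + (S*t) * ((81500774400 : ℝ) * (S2*t2) + (23813507520 : ℝ) * (S2^2) + (-63502686720 : ℝ) * (S2*t2^2) + (8659457280 : ℝ) * (S2*(k2*S2)) + (-143888308380 : ℝ) * (S2^2*t2) + (236150616240 : ℝ) * (S2*t2*(k2*S2)))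 + (t*k*S) * ((-60616200960 : ℝ) * (S2^2) + (161643202560 : ℝ) * (S2*t2^2) + (103913487360 : ℝ) * (S2*(k2*S2)) + (236150616240 : ℝ) * (S2^2*t2) + (-437543133120 : ℝ) * (S2*t2*(k2*S2))) :=
    lin_lb A1 P1 P2 P3 P4 P5 P6 P7 (by norm_num)
  have A2 : (3844439470080 : ℝ) - (601907189760 / 13 : ℝ) ≤ (1) * ((3844439470080 : ℝ) + t * (601907189760 : ℝ)) := by
    linarith [t1.1, t1.2]
  have U2 : 0 ≤ (1) * ((3844439470080 : ℝ) + t * (601907189760 : ℝ)) + (k2) * ((0 : ℝ) + t * (-8452589137920 : ℝ)) + (t2) * ((0 : ℝ) + t * (2182183234560 : ℝ)) + (S2) * ((0 : ℝ) + t * (0 : ℝ)) + (t2^2) * ((0 : ℝ) + t * (0 : ℝ)) + (k2*S2) * ((0 : ℝ) + t * (0 : ℝ)) + (S2*t2) * ((0 : ℝ) + t * (0 : ℝ)) + (t2*k2*S2) * ((0 : ℝ) + t * (0 : ℝ)) :=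
    lin_lb A2 Q1 Q2 Q3 Q4 Q5 Q6 Q7 (by norm_num)
  exact add_nonneg (mul_nonneg h0 U1) (mul_nonneg h0' U2)

end Vale.Agent.Lib.P154Q4
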