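import Vale.Agent.Lib.P154Q4.Near

namespace Vale.Agent.Lib.P154Q4

theorem near_coords {S τ q : ℝ} (hd : Dom S τ q) (hs : S ≤ 1 / 64) :
    ∃ t k : ℝ, τ = t + 1 ∧ q = 12 * (k * S) + 24 * (t + 1) + 40 ∧ |t| ≤ 1 / 13 ∧ 0 ≤ k ∧ k ≤ 7 / 12 := by
  have h0 := hd.s0
  have h1 := hd.tS
  have h2 := hd.lo
  have h3 := hd.hi
  have ht : |τ - 1| ≤ 1 / 13 := by
    rw [abs_le]
    constructor <;> nlinarith [sq_nonneg (τ - 1)]
  rcases h0.eq_or_lt with hz | hpos
  · subst hz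
    have e1 : (τ - 1) ^ 2 = 0 := by nlinarith [sq_nonneg (τ - 1)]
    have e2 : τ - 1 = 0 := by simpa using e1
    have e3 : τ = 1 := by linarith
    subst e3
    have e4 : q = 64 := by nlinarith
    refine ⟨0, 0, by norm_num, by rw [e4]; norm_num, by norm_num, by norm_num, by norm_num⟩
  · refine ⟨τ - 1, (q - 24 * τ - 40) / (12 * S), by ring, ?_, ht, ?_, ?_⟩
    · field_simp
      ring
    · apply div_nonneg
      · nlinarith [sq_nonneg (τ - 1)]
      · positivity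
    · rw [div_le_iff₀ (by positivity)]
      nlinarith [sq_nonneg (τ - 1)]

end Vale.Agent.Lib.P154Q4
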