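import Vale.Agent.Lib.P154Q4.NearCoords

namespace Vale.Agent.Lib.P154Q4

set_option maxHeartbeats 4000000 in
theorem near_pt {S τ q S2 τ' q' : ℝ} (hd : Dom S τ q) (hd' : Dom S2 τ' q') (hs : S ≤ 1 / 64) (hs' : S2 ≤ 1 / 64) :
    0 ≤ dotR (bRA (ptF S τ q)) (ptF S2 τ' q') := by
  obtain ⟨t, k, rfl, rfl, h2, h3, h4⟩ := near_coords hd hs
  obtain ⟨t2, k2, rfl, rfl, h2', h3', h4'⟩ := near_coords hd' hs'
  have core := near_core hd.s0 hs h2 h3 h4 hd'.s0 hs' h2' h3' h4'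
  have e : dotR (bRA (ptF S (t + 1) (12 * (k * S) + 24 * (t + 1) + 40))) (ptF S2 (t2 + 1) (12 * (k2 * S2) + 24 * (t2 + 1) + 40))
      = S * ((1) * ((1573733007360 : ℝ) * (1) + (146193776640 : ℝ) * (t2) + (11028857082048 : ℝ) * (S2) + (-19356453396288 : ℝ) * (k2*S2) + (23208618960 : ℝ) * (S2*t2) + (-490991227776 : ℝ) * (S2^2) + (841699247616 : ℝ) * (S2*(k2*S2))) + (k) * ((-4038603079680 : ℝ) * (t2) + (-21505412237148 : ℝ) * (S2) + (31480393236480 : ℝ) * (k2*S2) + (3129629736960 : ℝ) * (S2*t2) + (841699247616 : ℝ) * (S2^2) + (-1870442772480 : ℝ) * (S2*(k2*S2))) + (t) * ((182742220800 : ℝ) * (t2) + (631259266680 : ℝ) * (S2) + (4418300805120 : ℝ) * (k2*S2) + (260802478080 : ℝ) * (S2*t2) + (124696184832 : ℝ) * (S2^2) + (-332523159552 : ℝ) * (S2*t2^2) + (-498784739328 : ℝ) * (S2*(k2*S2)) + (40891881600 : ℝ) * (S2^2*t2)) + (S) * ((-978584592384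 : ℝ) * (S2) + (1677573586944 : ℝ) * (k2*S2) + (176041672704 : ℝ) * (S2*t2) + (147427260192 : ℝ) * (S2^2) + (69275658240 : ℝ) * (S2*t2^2) + (-288359927424 : ℝ) * (S2*(k2*S2)) + (16867901160 : ℝ) * (S2^2*t2) + (-42936475680 : ℝ) * (S2*t2*(k2*S2))) + (t^2) * ((-469444460544 : ℝ) * (S2*t2) + (69275658240 : ℝ) * (S2^2) + (64657281024 : ℝ) * (S2*t2^2) + (-166261579776 : ℝ) * (S2*(k2*S2)) + (-44981069760 : ℝ) * (S2^2*t2) + (114497268480 : ℝ) * (S2*t2*(k2*S2))) + (k*S) * ((1677573586944 : ℝ) * (S2) + (-3727941304320 : ℝ) * (k2*S2) + (-704166690816 : ℝ) * (S2*t2) + (-288359927424 : ℝ) * (S2^2) + (-166261579776 : ℝ) * (S2*t2^2) + (529958785536 : ℝ) * (S2*(k2*S2)) + (6133782240 : ℝ) * (S2^2*t2) + (73605386880 : ℝ) * (S2*t2*(k2*S2))) + (S*t) * ((81500774400 : ℝ) * (S2*t2) + (23813507520 : ℝ) * (S2^2) + (-63502686720 : ℝ) * (S2*t2^2) + (8659457280 : ℝ)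 * (S2*(k2*S2)) + (-143888308380 : ℝ) * (S2^2*t2) + (236150616240 : ℝ) * (S2*t2*(k2*S2))) + (t*k*S) * ((-60616200960 : ℝ) * (S2^2) + (161643202560 : ℝ) * (S2*t2^2) + (103913487360 : ℝ) * (S2*(k2*S2)) + (236150616240 : ℝ) * (S2^2*t2) + (-437543133120 : ℝ) * (S2*t2*(k2*S2))))
      + S2 * ((1) * ((3844439470080 : ℝ) + t * (601907189760 : ℝ)) + (k2) * ((0 : ℝ) + t * (-8452589137920 : ℝ)) + (t2) * ((0 : ℝ) + t * (2182183234560 : ℝ)) + (S2) * ((0 : ℝ) + t * (0 : ℝ)) + (t2^2) * ((0 : ℝ) + t * (0 : ℝ)) + (k2*S2) * ((0 : ℝ) + t * (0 : ℝ)) + (S2*t2) * ((0 : ℝ) + t * (0 : ℝ)) + (t2*k2*S2) * ((0 : ℝ) + t * (0 : ℝ))) := by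
    simp only [dotR, bRA, ptF]
    ring
  rw [e]
  exact core

end Vale.Agent.Lib.P154Q4
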