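import Vale.Agent.Lib.P154Q4.Forms

/-!
The pointwise inequalities: first for normalized vectors, then for all vectors by homogeneity.
-/

namespace Vale.Agent.Lib.P154Q4

/-- the mean -/
noncomputable def GM (x0 x1 x2 x3 : ℝ) : ℝ := (x0 + x1 + x2 + x3) / 4

/-- the extension of a function on normalized vectors to a homogeneous function -/
noncomputable def hm (f : ℝ → ℝ → ℝ → ℝ → ℝ) (x0 x1 x2 x3 : ℝ) : ℝ :=
  GM x0 x1 x2 x3 * f (x0 / GM x0 x1 x2 x3) (x1 / GM x0 x1 x2 x3) (x2 / GM x0 x1 x2 x3) (x3 / GM x0 x1 x2 x3)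

/-- the square of the quadratic invariant -/
noncomputable def fS2 (a b c d : ℝ) : ℝ := sS a b c d ^ 2
/-- the invariant on general vectors -/
noncomputable def fPhA (a b c d : ℝ) : ℝ := phA (sS a b c d) (sT a b c d)
/-- the invariant on vectors after an edge -/
noncomputable def fPhB (a b c d : ℝ) : ℝ := phB (sS a b c d) (sT a b c d)
/-- the first weight in the first inequality -/
noncomputable def fXi1 (a b c d : ℝ) : ℝ := xi1 (sS a b c d) (sT a b c d) (sQ a b c d)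
/-- the second weight in the first inequality -/
noncomputable def fXi2 (a b c d : ℝ) : ℝ := xi2 (sS a b c d) (sT a b c d) (sQ a b c d)
/-- the first weight in the second inequality -/
noncomputable def fAf1 (a b c d : ℝ) : ℝ := af1 (sS a b c d) (sT a b c d) (sQ a b c d)
/-- the second weight in the second inequality -/
noncomputable def fAf2 (a b c d : ℝ) : ℝ := af2 (sS a b c d) (sT a b c d) (sQ a b c d)

/-- normalized vectors after an edge with parameter at most `17/24` -/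
structure IsH (b0 b1 b2 b3 : ℝ) : Prop where
  h0 : 7 / 24 ≤ b0
  h1 : 7 / 24 ≤ b1
  h2 : 7 / 24 ≤ b2
  h3 : 7 / 24 ≤ b3
  sum : b0 + b1 + b2 + b3 = 4

theorem IsH.isD {b0 b1 b2 b3 : ℝ} (h : IsH b0 b1 b2 b3) : IsD b0 b1 b2 b3 :=
  ⟨by linarith [h.h0], by linarith [h.h1], by linarith [h.h2], by linarith [h.h3], h.sum⟩

/-- the point behind a vector after an edge -/
theorem IsH.exists_u {b0 b1 b2 b3 : ℝ} (h : IsH b0 b1 b2 b3) :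
    ∃ u0 u1 u2 u3 : ℝ, IsD u0 u1 u2 u3 ∧ sS b0 b1 b2 b3 = (17 / 24) ^ 2 * sS u0 u1 u2 u3
      ∧ sT b0 b1 b2 b3 = (17 / 24) ^ 3 * sT u0 u1 u2 u3 ∧ sQ b0 b1 b2 b3 = (17 / 24) ^ 4 * sQ u0 u1 u2 u3 := by
  refine ⟨1 + (b0 - 1) * (24 / 17), 1 + (b1 - 1) * (24 / 17), 1 + (b2 - 1) * (24 / 17), 1 + (b3 - 1) * (24 / 17),
    ⟨by linarith [h.h0], by linarith [h.h1], by linarith [h.h2], by linarith [h.h3], by linarith [h.sum]⟩, ?_, ?_, ?_⟩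
  · simp only [sS]; ring
  · simp only [sT]; ring
  · simp only [sQ]; ring

theorem IsH.sS_le {b0 b1 b2 b3 : ℝ} (h : IsH b0 b1 b2 b3) : sS b0 b1 b2 b3 ≤ 289 / 48 := by
  obtain ⟨u0, u1, u2, u3, hu, e, _, _⟩ := h.exists_u
  have := hu.sS_le
  rw [e]
  linarith

theorem e2_eq {y0 y1 y2 y3 : ℝ} (h : y0 + y1 + y2 + y3 = 4) : eE2 y0 y1 y2 y3 = 6 - sS y0 y1 y2 y3 / 2 := by
  have e : y3 = 4 - y0 - y1 - y2 := by linarith
  subst e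
  simp only [eE2, sS]
  ring

theorem e3_eq {y0 y1 y2 y3 : ℝ} (h : y0 + y1 + y2 + y3 = 4) :
    eE3 y0 y1 y2 y3 = 4 - sS y0 y1 y2 y3 + sT y0 y1 y2 y3 / 3 := by
  have e : y3 = 4 - y0 - y1 - y2 := by linarith
  subst e
  simp only [eE3, sS, sT]
  ring

theorem e4_eq {y0 y1 y2 y3 : ℝ} (h : y0 + y1 + y2 + y3 = 4) :
    eE4 y0 y1 y2 y3 = 1 - sS y0 y1 y2 y3 / 2 + sT y0 y1 y2 y3 / 3 + sS y0 y1 y2 y3 ^ 2 / 8 - sQ y0 y1 y2 y3 / 4 := by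
  have e : y3 = 4 - y0 - y1 - y2 := by linarith
  subst e
  simp only [eE4, sS, sT, sQ]
  ring

/-- the first pointwise inequality -/
theorem ptA_core {D y0 y1 y2 y3 : ℝ} (hD : 0 < D) (hy : IsD y0 y1 y2 y3) :
    D * sS y0 y1 y2 y3 ≤ paC D (eE2 (D * y0) (D * y1) (D * y2) (D * y3)) := by
  have h1 : eE2 (D * y0) (D * y1) (D * y2) (D * y3) = D ^ 2 * eE2 y0 y1 y2 y3 := by
    simp only [eE2]; ring
  have h2 := e2_eq hy.sum
  have h3 : 0 ≤ eE2 y0 y1 y2 y3 := by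
    have := hy.ha; have := hy.hb; have := hy.hc; have := hy.hd
    unfold eE2
    positivity
  rw [h1]
  have e : paC D (D ^ 2 * eE2 y0 y1 y2 y3) - D * sS y0 y1 y2 y3
      = D * eE2 y0 y1 y2 y3 * (D - 1) ^ 4 * ((2 * (D - 1) - 1) ^ 2 + (D - 1) ^ 2) / 5 := by
    have e' : sS y0 y1 y2 y3 = 12 - 2 * eE2 y0 y1 y2 y3 := by linarith
    rw [e']
    simp only [paC]
    ring
  have h4 : 0 ≤ D * eE2 y0 y1 y2 y3 * (D - 1) ^ 4 * ((2 * (D - 1) - 1) ^ 2 + (D - 1) ^ 2) / 5 := by positivity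
  linarith

/-- the second pointwise inequality -/
theorem ptB_core {D y0 y1 y2 y3 : ℝ} (hy : IsD y0 y1 y2 y3) (h1 : 7 / 24 ≤ D) (h2 : D ≤ 25 / 8)
    (hc : 1 < D → 2304 * (D - 1) ^ 2 ≤ 867 * sS y0 y1 y2 y3) :
    pbC D (eE2 (D * y0) (D * y1) (D * y2) (D * y3)) (eE3 (D * y0) (D * y1) (D * y2) (D * y3))
      (eE4 (D * y0) (D * y1) (D * y2) (D * y3)) ≤ D * fPhA y0 y1 y2 y3 := by
  have hm := mainI hy.dom h1 h2 hc
  have hb := bridgeI D (sS y0 y1 y2 y3) (gτ y0 y1 y2 y3) (gq y0 y1 y2 y3)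
  have e2' : eE2 (D * y0) (D * y1) (D * y2) (D * y3) = D ^ 2 * eE2 y0 y1 y2 y3 := by
    simp only [eE2]; ring
  have e3' : eE3 (D * y0) (D * y1) (D * y2) (D * y3) = D ^ 3 * eE3 y0 y1 y2 y3 := by
    simp only [eE3]; ring
  have e4' : eE4 (D * y0) (D * y1) (D * y2) (D * y3) = D ^ 4 * eE4 y0 y1 y2 y3 := by
    simp only [eE4]; ring
  rw [e2', e3', e4', e2_eq hy.sum, e3_eq hy.sum, e4_eq hy.sum, T_eq, Q_eq]
  unfold fPhA
  rw [T_eq]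
  have hp : 0 ≤ (D - 1) ^ 2 * (dotR (bRI (ptF (sS y0 y1 y2 y3) (gτ y0 y1 y2 y3) (gq y0 y1 y2 y3))) (ptD D) / 393216) :=
    mul_nonneg (sq_nonneg _) (div_nonneg hm (by norm_num))
  linarith

/-- the mean of a vector with positive mean, normalized -/
theorem norm_sum {x0 x1 x2 x3 D : ℝ} (hD : D = GM x0 x1 x2 x3) (h : 0 < D) :
    x0 / D + x1 / D + x2 / D + x3 / D = 4 := by
  have : x0 + x1 + x2 + x3 = 4 * D := by rw [hD]; unfold GM; ring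
  field_simp
  linarith

theorem norm_isD {x0 x1 x2 x3 D : ℝ} (hD : D = GM x0 x1 x2 x3) (h : 0 < D) (h0 : 0 ≤ x0) (h1 : 0 ≤ x1)
    (h2 : 0 ≤ x2) (h3 : 0 ≤ x3) : IsD (x0 / D) (x1 / D) (x2 / D) (x3 / D) :=
  ⟨by positivity, by positivity, by positivity, by positivity, norm_sum hD h⟩

/-- the mean of a product of a normalized vector and a vector after an edge -/
theorem mean_bounds {a0 a1 a2 a3 b0 b1 b2 b3 : ℝ} (ha : IsD a0 a1 a2 a3) (hb : IsH b0 b1 b2 b3) :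
    7 / 24 ≤ GM (a0 * b0) (a1 * b1) (a2 * b2) (a3 * b3) ∧ GM (a0 * b0) (a1 * b1) (a2 * b2) (a3 * b3) ≤ 25 / 8 := by
  obtain ⟨p0, p1, p2, p3, s⟩ := ha
  obtain ⟨q0, q1, q2, q3, t⟩ := hb
  unfold GM
  have u0 : b0 ≤ 25 / 8 := by linarith
  have u1 : b1 ≤ 25 / 8 := by linarith
  have u2 : b2 ≤ 25 / 8 := by linarith
  have u3 : b3 ≤ 25 / 8 := by linarith
  constructor
  · nlinarith [mul_nonneg p0 (sub_nonneg.2 q0), mul_nonneg p1 (sub_nonneg.2 q1), mul_nonneg p2 (sub_nonneg.2 q2),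
      mul_nonneg p3 (sub_nonneg.2 q3)]
  · nlinarith [mul_nonneg p0 (sub_nonneg.2 u0), mul_nonneg p1 (sub_nonneg.2 u1), mul_nonneg p2 (sub_nonneg.2 u2),
      mul_nonneg p3 (sub_nonneg.2 u3)]

/-- the Cauchy-Schwarz inequality in dimension four -/
theorem cs4 (u0 u1 u2 u3 v0 v1 v2 v3 : ℝ) : (u0 * v0 + u1 * v1 + u2 * v2 + u3 * v3) ^ 2
    ≤ (u0 ^ 2 + u1 ^ 2 + u2 ^ 2 + u3 ^ 2) * (v0 ^ 2 + v1 ^ 2 + v2 ^ 2 + v3 ^ 2) := by
  have key : (u0 ^ 2 + u1 ^ 2 + u2 ^ 2 + u3 ^ 2) * (v0 ^ 2 + v1 ^ 2 + v2 ^ 2 + v3 ^ 2)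
      - (u0 * v0 + u1 * v1 + u2 * v2 + u3 * v3) ^ 2
      = (u0 * v1 - u1 * v0) ^ 2 + (u0 * v2 - u2 * v0) ^ 2 + (u0 * v3 - u3 * v0) ^ 2 + (u1 * v2 - u2 * v1) ^ 2
        + (u1 * v3 - u3 * v1) ^ 2 + (u2 * v3 - u3 * v2) ^ 2 := by ring
  have : 0 ≤ (u0 * v1 - u1 * v0) ^ 2 + (u0 * v2 - u2 * v0) ^ 2 + (u0 * v3 - u3 * v0) ^ 2 + (u1 * v2 - u2 * v1) ^ 2
        + (u1 * v3 - u3 * v1) ^ 2 + (u2 * v3 - u3 * v2) ^ 2 := by positivity
  linarith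

/-- the core of the next statement -/
theorem coupling_core {a0 a1 a2 a3 b0 b1 b2 b3 y0 y1 y2 y3 D : ℝ} (p0 : 0 ≤ a0) (p1 : 0 ≤ a1) (p2 : 0 ≤ a2) (p3 : 0 ≤ a3)
    (s : a0 + a1 + a2 + a3 = 4) (hb4 : b0 + b1 + b2 + b3 = 4) (hb5 : sS b0 b1 b2 b3 ≤ 289 / 48)
    (e0 : a0 * b0 = D * y0) (e1 : a1 * b1 = D * y1) (e2 : a2 * b2 = D * y2) (e3 : a3 * b3 = D * y3)
    (hys : y0 + y1 + y2 + y3 = 4) (h1 : 1 < D) :
    2304 * (D - 1) ^ 2 ≤ 867 * sS y0 y1 y2 y3 := by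
  have hpos : 0 < D := by linarith
  -- Cauchy-Schwarz with the weights `a`
  have c1 : (a0 * b0 + a1 * b1 + a2 * b2 + a3 * b3) ^ 2
      ≤ (a0 + a1 + a2 + a3) * (a0 * b0 ^ 2 + a1 * b1 ^ 2 + a2 * b2 ^ 2 + a3 * b3 ^ 2) := by
    have key : (a0 + a1 + a2 + a3) * (a0 * b0 ^ 2 + a1 * b1 ^ 2 + a2 * b2 ^ 2 + a3 * b3 ^ 2)
        - (a0 * b0 + a1 * b1 + a2 * b2 + a3 * b3) ^ 2
        = a0 * a1 * (b0 - b1) ^ 2 + a0 * a2 * (b0 - b2) ^ 2 + a0 * a3 * (b0 - b3) ^ 2 + a1 * a2 * (b1 - b2) ^ 2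
          + a1 * a3 * (b1 - b3) ^ 2 + a2 * a3 * (b2 - b3) ^ 2 := by ring
    have : 0 ≤ a0 * a1 * (b0 - b1) ^ 2 + a0 * a2 * (b0 - b2) ^ 2 + a0 * a3 * (b0 - b3) ^ 2 + a1 * a2 * (b1 - b2) ^ 2
          + a1 * a3 * (b1 - b3) ^ 2 + a2 * a3 * (b2 - b3) ^ 2 := by positivity
    linarith
  have hsum : a0 * b0 + a1 * b1 + a2 * b2 + a3 * b3 = 4 * D := by
    rw [e0, e1, e2, e3]
    linear_combination D * hys
  rw [hsum, s] at c1
  have c2 : a0 * b0 ^ 2 + a1 * b1 ^ 2 + a2 * b2 ^ 2 + a3 * b3 ^ 2 = D * (y0 * b0 + y1 * b1 + y2 * b2 + y3 * b3) := by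
    have : a0 * b0 ^ 2 + a1 * b1 ^ 2 + a2 * b2 ^ 2 + a3 * b3 ^ 2
        = (a0 * b0) * b0 + (a1 * b1) * b1 + (a2 * b2) * b2 + (a3 * b3) * b3 := by ring
    rw [this, e0, e1, e2, e3]
    ring
  rw [c2] at c1
  have c3 : 4 * D ≤ y0 * b0 + y1 * b1 + y2 * b2 + y3 * b3 := by
    have e : (4 * D) ^ 2 = 4 * (D * (4 * D)) := by ring
    rw [e] at c1
    have : D * (4 * D) ≤ D * (y0 * b0 + y1 * b1 + y2 * b2 + y3 * b3) := by linarith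
    exact le_of_mul_le_mul_left this hpos
  -- centering
  have c4 : y0 * b0 + y1 * b1 + y2 * b2 + y3 * b3
      = (y0 - 1) * (b0 - 1) + (y1 - 1) * (b1 - 1) + (y2 - 1) * (b2 - 1) + (y3 - 1) * (b3 - 1) + 4 := by
    linear_combination hys + hb4
  have c5 : 4 * (D - 1) ≤ (y0 - 1) * (b0 - 1) + (y1 - 1) * (b1 - 1) + (y2 - 1) * (b2 - 1) + (y3 - 1) * (b3 - 1) := by
    linarith
  -- Cauchy-Schwarz
  have c6 : ((y0 - 1) * (b0 - 1) + (y1 - 1) * (b1 - 1) + (y2 - 1) * (b2 - 1) + (y3 - 1) * (b3 - 1)) ^ 2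
      ≤ sS y0 y1 y2 y3 * sS b0 b1 b2 b3 := by
    unfold sS
    exact cs4 _ _ _ _ _ _ _ _
  have c7 : (4 * (D - 1)) ^ 2 ≤ sS y0 y1 y2 y3 * sS b0 b1 b2 b3 :=
    le_trans (pow_le_pow_left₀ (by linarith) c5 2) c6
  have c8 : sS y0 y1 y2 y3 * sS b0 b1 b2 b3 ≤ sS y0 y1 y2 y3 * (289 / 48) :=
    mul_le_mul_of_nonneg_left hb5 (sS_nonneg _ _ _ _)
  have e : (4 * (D - 1)) ^ 2 = 16 * (D - 1) ^ 2 := by ring
  rw [e] at c7
  linarith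

/-- When the mean is larger than one, the normalized product has a large second moment. -/
theorem coupling {a0 a1 a2 a3 b0 b1 b2 b3 D : ℝ} (ha : IsD a0 a1 a2 a3) (hb : IsH b0 b1 b2 b3)
    (hD : D = GM (a0 * b0) (a1 * b1) (a2 * b2) (a3 * b3)) (h1 : 1 < D) :
    2304 * (D - 1) ^ 2 ≤ 867 * sS (a0 * b0 / D) (a1 * b1 / D) (a2 * b2 / D) (a3 * b3 / D) := by
  have hpos : 0 < D := by linarith
  exact coupling_core ha.ha ha.hb ha.hc ha.hd ha.sum hb.sum hb.sS_le (by field_simp) (by field_simp) (by field_simp)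
    (by field_simp) (norm_sum hD hpos) h1

theorem scale_eq (D x : ℝ) (hD : 0 < D) : D * (x / D) = x := by field_simp

/-- the first pointwise inequality, for products -/
theorem pt_A {a0 a1 a2 a3 b0 b1 b2 b3 : ℝ} (ha : IsD a0 a1 a2 a3) (hb : IsH b0 b1 b2 b3) :
    hm sS (a0 * b0) (a1 * b1) (a2 * b2) (a3 * b3) ≤ polyA (a0 * b0) (a1 * b1) (a2 * b2) (a3 * b3) := by
  obtain ⟨m1, _⟩ := mean_bounds ha hb
  set D := GM (a0 * b0) (a1 * b1) (a2 * b2) (a3 * b3) with hD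
  have hpos : 0 < D := by linarith
  have hy : IsD (a0 * b0 / D) (a1 * b1 / D) (a2 * b2 / D) (a3 * b3 / D) :=
    norm_isD hD hpos (mul_nonneg ha.ha (by linarith [hb.h0])) (mul_nonneg ha.hb (by linarith [hb.h1]))
      (mul_nonneg ha.hc (by linarith [hb.h2])) (mul_nonneg ha.hd (by linarith [hb.h3]))
  have key := ptA_core hpos hy
  simp only [scale_eq D _ hpos] at key
  exact key

/-- the second pointwise inequality, for products -/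
theorem pt_B {a0 a1 a2 a3 b0 b1 b2 b3 : ℝ} (ha : IsD a0 a1 a2 a3) (hb : IsH b0 b1 b2 b3) :
    polyB (a0 * b0) (a1 * b1) (a2 * b2) (a3 * b3) ≤ hm fPhA (a0 * b0) (a1 * b1) (a2 * b2) (a3 * b3) := by
  obtain ⟨m1, m2⟩ := mean_bounds ha hb
  set D := GM (a0 * b0) (a1 * b1) (a2 * b2) (a3 * b3) with hD
  have hpos : 0 < D := by linarith
  have hy : IsD (a0 * b0 / D) (a1 * b1 / D) (a2 * b2 / D) (a3 * b3 / D) :=
    norm_isD hD hpos (mul_nonneg ha.ha (by linarith [hb.h0])) (mul_nonneg ha.hb (by linarith [hb.h1]))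
      (mul_nonneg ha.hc (by linarith [hb.h2])) (mul_nonneg ha.hd (by linarith [hb.h3]))
  have key := ptB_core hy m1 m2 (fun h => coupling ha hb hD h)
  simp only [scale_eq D _ hpos] at key
  exact key

/-- comparison of averages -/
theorem avg24_le {G G' : ℝ → ℝ → ℝ → ℝ → ℝ} {a0 a1 a2 a3 b0 b1 b2 b3 : ℝ} (hb : IsH b0 b1 b2 b3)
    (h : ∀ c0 c1 c2 c3, IsH c0 c1 c2 c3 → G (a0 * c0) (a1 * c1) (a2 * c2) (a3 * c3) ≤ G' (a0 * c0) (a1 * c1) (a2 * c2) (a3 * c3)) :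
    avg24 G a0 a1 a2 a3 b0 b1 b2 b3 ≤ avg24 G' a0 a1 a2 a3 b0 b1 b2 b3 := by
  obtain ⟨p0, p1, p2, p3, s⟩ := hb
  unfold avg24
  have key : ∀ i j k l : ℝ, 7 / 24 ≤ i → 7 / 24 ≤ j → 7 / 24 ≤ k → 7 / 24 ≤ l → i + j + k + l = 4 →
      G (a0 * i) (a1 * j) (a2 * k) (a3 * l) ≤ G' (a0 * i) (a1 * j) (a2 * k) (a3 * l) :=
    fun i j k l a b c d e => h i j k l ⟨a, b, c, d, e⟩
  have t1 := key b0 b1 b2 b3 p0 p1 p2 p3 (by linarith)
  have t2 := key b0 b1 b3 b2 p0 p1 p3 p2 (by linarith)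
  have t3 := key b0 b2 b1 b3 p0 p2 p1 p3 (by linarith)
  have t4 := key b0 b2 b3 b1 p0 p2 p3 p1 (by linarith)
  have t5 := key b0 b3 b1 b2 p0 p3 p1 p2 (by linarith)
  have t6 := key b0 b3 b2 b1 p0 p3 p2 p1 (by linarith)
  have t7 := key b1 b0 b2 b3 p1 p0 p2 p3 (by linarith)
  have t8 := key b1 b0 b3 b2 p1 p0 p3 p2 (by linarith)
  have t9 := key b1 b2 b0 b3 p1 p2 p0 p3 (by linarith)
  have t10 := key b1 b2 b3 b0 p1 p2 p3 p0 (by linarith)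
  have t11 := key b1 b3 b0 b2 p1 p3 p0 p2 (by linarith)
  have t12 := key b1 b3 b2 b0 p1 p3 p2 p0 (by linarith)
  have t13 := key b2 b0 b1 b3 p2 p0 p1 p3 (by linarith)
  have t14 := key b2 b0 b3 b1 p2 p0 p3 p1 (by linarith)
  have t15 := key b2 b1 b0 b3 p2 p1 p0 p3 (by linarith)
  have t16 := key b2 b1 b3 b0 p2 p1 p3 p0 (by linarith)
  have t17 := key b2 b3 b0 b1 p2 p3 p0 p1 (by linarith)
  have t18 := key b2 b3 b1 b0 p2 p3 p1 p0 (by linarith)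
  have t19 := key b3 b0 b1 b2 p3 p0 p1 p2 (by linarith)
  have t20 := key b3 b0 b2 b1 p3 p0 p2 p1 (by linarith)
  have t21 := key b3 b1 b0 b2 p3 p1 p0 p2 (by linarith)
  have t22 := key b3 b1 b2 b0 p3 p1 p2 p0 (by linarith)
  have t23 := key b3 b2 b0 b1 p3 p2 p0 p1 (by linarith)
  have t24 := key b3 b2 b1 b0 p3 p2 p1 p0 (by linarith)
  linarith

/-- the first inequality for normalized vectors -/
theorem rawA_n {a0 a1 a2 a3 b0 b1 b2 b3 : ℝ} (ha : IsD a0 a1 a2 a3) (hb : IsH b0 b1 b2 b3) :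
    avg24 (hm sS) a0 a1 a2 a3 b0 b1 b2 b3 ≤ sS a0 a1 a2 a3 + sS b0 b1 b2 b3
      - fXi1 b0 b1 b2 b3 * fPhA a0 a1 a2 a3 - fXi2 a0 a1 a2 a3 * fPhB b0 b1 b2 b3
      - 1 / 8192 * (fS2 a0 a1 a2 a3 * sS b0 b1 b2 b3 + sS a0 a1 a2 a3 * fS2 b0 b1 b2 b3) := by
  have h1 : avg24 (hm sS) a0 a1 a2 a3 b0 b1 b2 b3 ≤ avg24 polyA a0 a1 a2 a3 b0 b1 b2 b3 :=
    avg24_le hb (fun _ _ _ _ hc => pt_A ha hc)
  obtain ⟨u0, u1, u2, u3, hu, eS, eT, eQ⟩ := hb.exists_u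
  have main := mainA ha.dom hu.dom
  have key := bridgeA (sS a0 a1 a2 a3) (gτ a0 a1 a2 a3) (gq a0 a1 a2 a3) (sS u0 u1 u2 u3) (gτ u0 u1 u2 u3) (gq u0 u1 u2 u3)
  have h2 := avg_polyA ha.sum hb.sum
  have eTa := T_eq (a := a0) (b := a1) (c := a2) (d := a3)
  have eQa := Q_eq (a := a0) (b := a1) (c := a2) (d := a3)
  have eTu := T_eq (a := u0) (b := u1) (c := u2) (d := u3)
  have eQu := Q_eq (a := u0) (b := u1) (c := u2) (d := u3)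
  simp only [fXi1, fXi2, fPhA, fPhB, fS2]
  rw [eS, eT, eQ, eTu, eQu, eTa, eQa] at h2 ⊢
  have hS := sS_nonneg a0 a1 a2 a3
  have hS' := sS_nonneg u0 u1 u2 u3
  have hp : 0 ≤ sS a0 a1 a2 a3 * ((17 / 24) ^ 2 * sS u0 u1 u2 u3) *
      (dotR (bRA (ptF (sS a0 a1 a2 a3) (gτ a0 a1 a2 a3) (gq a0 a1 a2 a3))) (ptF (sS u0 u1 u2 u3) (gτ u0 u1 u2 u3) (gq u0 u1 u2 u3)) / 634033809653760) :=
    mul_nonneg (by positivity) (div_nonneg main (by norm_num))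
  linarith

/-- the second inequality for normalized vectors -/
theorem rawB_n {a0 a1 a2 a3 b0 b1 b2 b3 : ℝ} (ha : IsD a0 a1 a2 a3) (hb : IsH b0 b1 b2 b3) :
    fAf1 b0 b1 b2 b3 * fPhA a0 a1 a2 a3 + fAf2 a0 a1 a2 a3 * fPhB b0 b1 b2 b3
      ≤ avg24 (hm fPhA) a0 a1 a2 a3 b0 b1 b2 b3 := by
  have h1 : avg24 polyB a0 a1 a2 a3 b0 b1 b2 b3 ≤ avg24 (hm fPhA) a0 a1 a2 a3 b0 b1 b2 b3 :=
    avg24_le hb (fun _ _ _ _ hc => pt_B ha hc)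
  obtain ⟨u0, u1, u2, u3, hu, eS, eT, eQ⟩ := hb.exists_u
  obtain ⟨Hp, hH1, hH2, main⟩ := mainB ha.dom hu.dom
  have key := bridgeB (sS a0 a1 a2 a3) (gτ a0 a1 a2 a3) (gq a0 a1 a2 a3) (sS u0 u1 u2 u3) (gτ u0 u1 u2 u3) (gq u0 u1 u2 u3)
  have h2 := avg_polyB ha.sum hb.sum
  have eTa := T_eq (a := a0) (b := a1) (c := a2) (d := a3)
  have eQa := Q_eq (a := a0) (b := a1) (c := a2) (d := a3)
  have eTu := T_eq (a := u0) (b := u1) (c := u2) (d := u3)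
  have eQu := Q_eq (a := u0) (b := u1) (c := u2) (d := u3)
  simp only [fAf1, fAf2, fPhA, fPhB]
  rw [eS, eT, eQ, eTu, eQu, eTa, eQa] at h2 ⊢
  rw [bRBH_eq] at main
  have e0 : (ptF (sS a0 a1 a2 a3) (gτ a0 a1 a2 a3) (gq a0 a1 a2 a3)).a0 = 1 := rfl
  have e1 : (ptF (sS u0 u1 u2 u3) (gτ u0 u1 u2 u3) (gq u0 u1 u2 u3)).a2 = sS u0 u1 u2 u3 := rfl
  rw [e0, e1] at main
  set dt := dotR (bRB (ptF (sS a0 a1 a2 a3) (gτ a0 a1 a2 a3) (gq a0 a1 a2 a3))) (ptF (sS u0 u1 u2 u3) (gτ u0 u1 u2 u3) (gq u0 u1 u2 u3)) with hdt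
  have hS := sS_nonneg a0 a1 a2 a3
  have hS' := sS_nonneg u0 u1 u2 u3
  set X := sS a0 a1 a2 a3 with hX
  set Y := sS u0 u1 u2 u3 with hY
  have hHp : (0 : ℝ) < Hp := by exact_mod_cast hH2
  -- the remainder is nonnegative
  have hrem : 0 ≤ X * ((17 / 24) ^ 2 * Y) * (dt / 2077601987473440768) + 59 / 1024 * ((17 / 24) ^ 2 * Y) ^ 2 := by
    have k1 : 0 ≤ (X * Y) * (Hp * dt + 246008274225066934272 * 1 * Y) := mul_nonneg (by positivity) main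
    have k2 : 0 ≤ Y ^ 2 * ((Hp : ℝ) - 4096 * X) := mul_nonneg (by positivity) (by linarith)
    have k3 : 0 ≤ Hp * (X * ((17 / 24) ^ 2 * Y) * (dt / 2077601987473440768) + 59 / 1024 * ((17 / 24) ^ 2 * Y) ^ 2) := by
      have e : Hp * (X * ((17 / 24) ^ 2 * Y) * (dt / 2077601987473440768) + 59 / 1024 * ((17 / 24) ^ 2 * Y) ^ 2)
          = ((17 / 24) ^ 2 / 2077601987473440768) * ((X * Y) * (Hp * dt + 246008274225066934272 * 1 * Y))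
            + (59 / 1024 * (17 / 24) ^ 4) * (Y ^ 2 * ((Hp : ℝ) - 4096 * X)) := by ring
      rw [e]
      positivity
    exact nonneg_of_mul_nonneg_right k3 hHp
  linarith

end Vale.Agent.Lib.P154Q4
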