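import Vale.Agent.Lib.P154Q4.Raw

/-!
The four weights are nonnegative.
-/

namespace Vale.Agent.Lib.P154Q4

theorem bridgeX1 (S τ q : ℝ) : xi1 ((17 / 24) ^ 2 * S) ((17 / 24) ^ 3 * (S * (τ - 1))) ((17 / 24) ^ 4 * (S * ((q - 24 * τ - 40) / 12))) = (17 / 24) ^ 2 * S * (dotR cX1 (ptF S τ q) / 18874368) := by
  simp only [xi1, dotR, cX1, ptF]
  ring

theorem bridgeX2 (S τ q : ℝ) : xi2 S (S * (τ - 1)) (S * ((q - 24 * τ - 40) / 12)) = S * (dotR cX2 (ptF S τ q) / 98304) := by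
  simp only [xi2, dotR, cX2, ptF]
  ring

theorem bridgeA1 (S τ q : ℝ) : af1 ((17 / 24) ^ 2 * S) ((17 / 24) ^ 3 * (S * (τ - 1))) ((17 / 24) ^ 4 * (S * ((q - 24 * τ - 40) / 12))) = 1 - S * (dotR cA1 (ptF S τ q) / 3131031158784) := by
  simp only [af1, dotR, cA1, ptF]
  ring

theorem bridgeA2 (S τ q : ℝ) : af2 S (S * (τ - 1)) (S * ((q - 24 * τ - 40) / 12)) = 1 - S * (dotR cA2 (ptF S τ q) / 196608) := by
  simp only [af2, dotR, cA2, ptF]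
  ring

theorem uA1_eq (H : Nat) (x : VR) (h : x.a0 = 1) : dotR (uA1 H) x = 12824703626379264 - H * dotR cA1 x := by
  simp only [dotR, uA1, h]
  ring

theorem uA2_eq (H : Nat) (x : VR) (h : x.a0 = 1) : dotR (uA2 H) x = 805306368 - H * dotR cA2 x := by
  simp only [dotR, uA2, h]
  ring

/-- from the test on cells to the weight -/
theorem weight_nonneg {S c Dn : ℝ} {Hp : Nat} (hS : 0 ≤ S) (hDn : 0 < Dn) (h1 : (4096 : ℝ) * S ≤ Hp) (h2 : 0 < Hp)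
    (h3 : 0 ≤ 4096 * Dn - Hp * c) : 0 ≤ 1 - S * (c / Dn) := by
  have hc : S * c ≤ Dn := by
    rcases le_total c 0 with h | h
    · have := mul_nonpos_of_nonneg_of_nonpos hS h
      linarith
    · have h4 : (4096 * S) * c ≤ Hp * c := mul_le_mul_of_nonneg_right h1 h
      have h5 : 4096 * (S * c) ≤ 4096 * Dn := by linarith
      linarith
  have e : S * (c / Dn) = (S * c) / Dn := by ring
  rw [e]
  have : (S * c) / Dn ≤ 1 := by
    rw [div_le_one hDn]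
    exact hc
  linarith

theorem fXi1_nonneg {b0 b1 b2 b3 : ℝ} (hb : IsH b0 b1 b2 b3) : 0 ≤ fXi1 b0 b1 b2 b3 := by
  obtain ⟨u0, u1, u2, u3, hu, eS, eT, eQ⟩ := hb.exists_u
  obtain ⟨_, _, _, h⟩ := sideX1 hu.dom
  unfold fXi1
  rw [eS, eT, eQ, T_eq (a := u0), Q_eq (a := u0), bridgeX1]
  have := sS_nonneg u0 u1 u2 u3
  exact mul_nonneg (by positivity) (div_nonneg h (by norm_num))

theorem fXi2_nonneg {a0 a1 a2 a3 : ℝ} (ha : IsD a0 a1 a2 a3) : 0 ≤ fXi2 a0 a1 a2 a3 := by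
  obtain ⟨_, _, _, h⟩ := sideX2 ha.dom
  unfold fXi2
  rw [T_eq (a := a0), Q_eq (a := a0), bridgeX2]
  exact mul_nonneg (sS_nonneg _ _ _ _) (div_nonneg h (by norm_num))

theorem fAf1_nonneg {b0 b1 b2 b3 : ℝ} (hb : IsH b0 b1 b2 b3) : 0 ≤ fAf1 b0 b1 b2 b3 := by
  obtain ⟨u0, u1, u2, u3, hu, eS, eT, eQ⟩ := hb.exists_u
  obtain ⟨Hp, h1, h2, h3⟩ := sideA1 hu.dom
  unfold fAf1
  rw [eS, eT, eQ, T_eq (a := u0), Q_eq (a := u0), bridgeA1]
  rw [uA1_eq _ _ rfl] at h3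
  refine weight_nonneg (sS_nonneg _ _ _ _) (by norm_num) h1 h2 ?_
  norm_num
  norm_num at h3
  linarith

theorem fAf2_nonneg {a0 a1 a2 a3 : ℝ} (ha : IsD a0 a1 a2 a3) : 0 ≤ fAf2 a0 a1 a2 a3 := by
  obtain ⟨Hp, h1, h2, h3⟩ := sideA2 ha.dom
  unfold fAf2
  rw [T_eq (a := a0), Q_eq (a := a0), bridgeA2]
  rw [uA2_eq _ _ rfl] at h3
  refine weight_nonneg (sS_nonneg _ _ _ _) (by norm_num) h1 h2 ?_
  norm_num
  norm_num at h3
  linarith

end Vale.Agent.Lib.P154Q4
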