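import Vale.Agent.Lib.P154Q4.Side

namespace Vale.Agent.Lib.P154Q4

set_option maxRecDepth 100000
set_option exponentiation.threshold 1000

open Tr

/-- the coefficients of a linear form -/
def cX1 : VR := ⟨(4937528 : ℝ), (1075080 : ℝ), (96237 : ℝ), (-44795 : ℝ), (4913 : ℝ), (0 : ℝ), (0 : ℝ), (0 : ℝ), (0 : ℝ), (0 : ℝ)⟩

theorem linkX1 (H : Nat) (v : V) : dotR cX1 v.r = (dot ⟨4937528, 1075080, 96237, 0, 4913, 0, 0, 0, 0, 0⟩ v : ℝ) - (dot ⟨0, 0, 0, 44795, 0, 0, 0, 0, 0, 0⟩ v : ℝ) := by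
  simp only [dotR, cX1, V.r, dot_eq]
  push_cast
  ring

theorem rootSX10 : CellOK 4096 Dom (fun _ _ _ => True) (SideP 4096 (fun _ => cX1)) ⟨0, 49152, 0, 4096⟩ ⟨0, 0, 0, 0⟩ :=
  side_sound (by norm_num) linkX1 z0 _ _ (by decide +kernel)

theorem rootSX11 : CellOK 4096 Dom (fun _ _ _ => True) (SideP 4096 (fun _ => cX1)) ⟨0, 49152, 4096, 12288⟩ ⟨0, 0, 0, 0⟩ :=
  side_sound (by norm_num) linkX1 z0 _ _ (by decide +kernel)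

theorem sideX1 {S τ q : ℝ} (hd : Dom S τ q) :
    ∃ Hp : Nat, (4096 : ℝ) * S ≤ Hp ∧ 0 < Hp ∧ 0 ≤ dotR ((fun _ => cX1) Hp) (ptF S τ q) := by
  have hy : InC 4096 ⟨0, 0, 0, 0⟩ 0 0 := by
    constructor <;> norm_num
  have h1 := hd.s0
  have h2 := hd.s12
  have h3 := hd.t0
  have h4 := hd.t3
  rcases le_total τ 1 with h | h
  · exact rootSX10 S τ q 0 0 0 hd trivial (by constructor <;> push_cast <;> linarith) hy
  · exact rootSX11 S τ q 0 0 0 hd trivial (by constructor <;> push_cast <;> linarith) hy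

/-- the coefficients of a linear form -/
def cX2 : VR := ⟨(44840 : ℝ), (10520 : ℝ), (1032 : ℝ), (-609 : ℝ), (984 : ℝ), (0 : ℝ), (0 : ℝ), (0 : ℝ), (0 : ℝ), (0 : ℝ)⟩

theorem linkX2 (H : Nat) (v : V) : dotR cX2 v.r = (dot ⟨44840, 10520, 1032, 0, 984, 0, 0, 0, 0, 0⟩ v : ℝ) - (dot ⟨0, 0, 0, 609, 0, 0, 0, 0, 0, 0⟩ v : ℝ) := by
  simp only [dotR, cX2, V.r, dot_eq]
  push_cast
  ring

theorem rootSX20 : CellOK 4096 Dom (fun _ _ _ => True) (SideP 4096 (fun _ => cX2)) ⟨0, 49152, 0, 4096⟩ ⟨0, 0, 0, 0⟩ :=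
  side_sound (by norm_num) linkX2 z0 _ _ (by decide +kernel)

theorem rootSX21 : CellOK 4096 Dom (fun _ _ _ => True) (SideP 4096 (fun _ => cX2)) ⟨0, 49152, 4096, 12288⟩ ⟨0, 0, 0, 0⟩ :=
  side_sound (by norm_num) linkX2 (a (a (b z0 (b (b z0 z0) z0)) (b z0 (b (b z0 z0) z0))) (b z0 (b z0 (b (b z0 z0) (b z0 z0))))) _ _ (by decide +kernel)

theorem sideX2 {S τ q : ℝ} (hd : Dom S τ q) :
    ∃ Hp : Nat, (4096 : ℝ) * S ≤ Hp ∧ 0 < Hp ∧ 0 ≤ dotR ((fun _ => cX2) Hp) (ptF S τ q) := by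
  have hy : InC 4096 ⟨0, 0, 0, 0⟩ 0 0 := by
    constructor <;> norm_num
  have h1 := hd.s0
  have h2 := hd.s12
  have h3 := hd.t0
  have h4 := hd.t3
  rcases le_total τ 1 with h | h
  · exact rootSX20 S τ q 0 0 0 hd trivial (by constructor <;> push_cast <;> linarith) hy
  · exact rootSX21 S τ q 0 0 0 hd trivial (by constructor <;> push_cast <;> linarith) hy

/-- the coefficients of a linear form -/
def cA1 : VR := ⟨(2384836841088 : ℝ), (1202968409472 : ℝ), (-283738794015 : ℝ), (-41336881488 : ℝ), (-81638937786 : ℝ), (-42892460113 : ℝ), (-31065051303 : ℝ), (7748159649 : ℝ), (0 : ℝ), (0 : ℝ)⟩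

/-- the positive part of the test with the parameter -/
def cPA1 (H : Nat) : V := ⟨12824703626379264 + H * 0, H * 0, H * 283738794015, H * 41336881488, H * 81638937786, H * 42892460113, H * 31065051303, H * 0, H * 0, H * 0⟩

/-- the negative part of the test with the parameter -/
def cNA1 (H : Nat) : V := ⟨H * 2384836841088, H * 1202968409472, H * 0, H * 0, H * 0, H * 0, H * 0, H * 7748159649, H * 0, H * 0⟩

/-- the test with the parameter -/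
def uA1 (H : Nat) : VR := ⟨(12824703626379264 : ℝ) - H * cA1.a0, -(H * cA1.a1), -(H * cA1.a2), -(H * cA1.a3), -(H * cA1.a4), -(H * cA1.a5), -(H * cA1.a6), -(H * cA1.a7), -(H * cA1.a8), -(H * cA1.a9)⟩

theorem linkA1 (H : Nat) (v : V) : dotR (uA1 H) v.r = (dot (cPA1 H) v : ℝ) - (dot (cNA1 H) v : ℝ) := by
  simp only [dotR, uA1, cA1, V.r, dot_eq, cPA1, cNA1]
  push_cast
  ring

theorem rootSA10 : CellOK 4096 Dom (fun _ _ _ => True) (SideP 4096 uA1) ⟨0, 49152, 0, 4096⟩ ⟨0, 0, 0, 0⟩ :=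
  side_sound (by norm_num) linkA1 (a z0 (b z0 (b z0 (a z0 z0)))) _ _ (by decide +kernel)

theorem rootSA11 : CellOK 4096 Dom (fun _ _ _ => True) (SideP 4096 uA1) ⟨0, 49152, 4096, 12288⟩ ⟨0, 0, 0, 0⟩ :=
  side_sound (by norm_num) linkA1 (a (a (b z0 z0) (b (b (b (b z0 (a z0 z0)) (b (a z0 z0) (a z0 (b z0 (a z0 z0))))) (b (a (b (a z0 z0) (a z0 z0)) (b (b (a z0 z0) (a z0 z0)) (b (a z0 z0) (a z0 z0)))) (a (b (a z0 (b (a z0 z0) (a z0 z0))) (a z0 z0)) (b (b (a z0 z0) (a (b (a z0 z0) (a z0 z0)) z0)) (a (b (a z0 z0) (a z0 z0)) (b z0 (b (a z0 z0) (a z0 z0)))))))) (b (b (a (b (a z0 z0) z0) (b (a (b (a z0 z0) (a z0 z0)) (b (b (a z0 z0) (a z0 z0)) (b (a z0 z0) (a z0 z0)))) (a (b (a z0 z0) (a z0 z0)) (b (b (a z0 z0) (a z0 z0)) (b (a z0 z0) (a z0 z0)))))) (b (b (a z0 (b (a z0 z0) (a z0 z0))) (a z0 (b (a z0 z0) (a z0 z0)))) z0)) z0))) (b z0 (b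 (b (b z0 (b (b z2 (a z0 z0)) (b (a z2 z2) (a (b (a z0 z0) (a z0 z0)) z2)))) (b (b (a (b (a z0 z0) (a z0 z0)) (b (b z2 (a z0 z0)) (a z2 z2))) (a (b (a (b (a z0 z0) (a z0 z0)) (b (a z0 z0) (a z0 z0))) (a (b (a z0 z0) (a z0 z0)) (b (a z0 z0) (a z0 z0)))) (b (a z2 z2) (a (b (a z0 z0) (a z0 z0)) z2)))) (a (b (a (b (a z0 z0) (a z0 z0)) (b (a (b z2 (a z0 z0)) z2) (a (b (a z0 z0) (a z0 z0)) (b (a z0 z0) (a z0 z0))))) (b (a (b (a z0 z0) (a z0 z0)) (b (a z0 z2) (a z0 (b (a z0 z0) z0)))) (a (b (a z0 z0) z0) (b (a z0 z0) (a z0 z0))))) (b (b (a z2 z2) (a (b (a z2 z2) (a z2 z2)) (b z2 (a z2 z2)))) (a (b (a (b (a z0 z0) (a z0 z0)) (b z2 (b z2 (a z0 z0)))) (a (b (a z0 z0) (a z0 z0)) (b (b (a z0 z0) (a z0 z0)) (b (a z0 z0) (a z0 z0))))) (b (b z2 (a z2 z2)) (b (a z2 z2) (a (b z2 (a z0 z2)) z2)))))))) (b (b (a (b (a (b (a (b (a z0 z0) z0) (b (b (a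 z0 z0) (a z0 z0)) (b (a z0 z0) (a z0 z0)))) (b (b (a z0 z0) z0) z0)) (b (b (a (b (a z0 z0) (a z0 z0)) (b (a z0 z0) (a z0 z0))) (a (b (a z0 z0) (a z0 z0)) (b (a z0 z0) (a z0 z0)))) (b (a (b (a z0 z0) (a z0 z0)) (b (a z0 z0) (a z0 z0))) (a (b (a z0 z0) (a z0 z0)) (b (a z0 z0) (a z0 z0)))))) (b (b (a (b (a z0 z0) (a z0 z0)) (b (a z0 z0) (a z0 z0))) (a (b (a z0 z0) z0) z0)) (b (b z0 z0) z0))) (b (b (b (a z2 z2) (a z2 z2)) (a (b (a z2 z2) (a z2 z2)) (b z2 (a z2 z2)))) (b (a (b (a (b (a z0 z0) (a z0 z0)) z2) (a (b (a z0 z0) (a z0 z0)) (b z2 (a z0 z0)))) (b (a z2 z2) (a z2 z2))) (a (b (a (b (a z0 z0) (a z0 z0)) (b (a z0 z0) (a z0 z0))) (a (b (a (b z0 z0) z0) (a z0 z0)) (b (a z0 z0) (a z0 z0)))) (b (a z2 z2) (a (b (a z0 z0) (a z0 z0)) z2)))))) (b (a (b (a (b (a (b (a z0 z0) z0) z0) (b (a z0 z0) z0)) (b (a z0 z0) (a z0 z0))) (b (a (b (a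 z0 z0) z0) z0) (b (a z0 z0) z0))) (b (b z2 (a z2 z2)) (a (b (a z0 z0) (a z0 z0)) z2))) (b (a (b (a (b (a z0 z0) (b z0 z0)) z0) (b (a z0 z0) (a z0 z0))) (b z2 (a z0 z0))) (a (b (a (b (a z0 z0) z0) z0) (b (a z0 z0) z0)) (b z0 (a z0 z0)))))) (b (b (b (a (b (a (b (a z0 z0) z0) z0) (b z0 z0)) z0) (b (a (b (a z0 z0) z0) z0) (a (b (a z0 z0) z0) z0))) (b (b (a (b z0 z0) z0) (a (b z0 z0) z0)) (b (b z0 z0) (b z0 z0)))) (b (b (b (b z0 z0) (b z0 z0)) (b (b z0 z0) (b z0 z0))) (b (b (b z0 z0) (b z0 z0)) (b (b z0 z0) (b z0 z0))))))))) _ _ (by decide +kernel)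

theorem sideA1 {S τ q : ℝ} (hd : Dom S τ q) :
    ∃ Hp : Nat, (4096 : ℝ) * S ≤ Hp ∧ 0 < Hp ∧ 0 ≤ dotR (uA1 Hp) (ptF S τ q) := by
  have hy : InC 4096 ⟨0, 0, 0, 0⟩ 0 0 := by
    constructor <;> norm_num
  have h1 := hd.s0
  have h2 := hd.s12
  have h3 := hd.t0
  have h4 := hd.t3
  rcases le_total τ 1 with h | h
  · exact rootSA10 S τ q 0 0 0 hd trivial (by constructor <;> push_cast <;> linarith) hy
  · exact rootSA11 S τ q 0 0 0 hd trivial (by constructor <;> push_cast <;> linarith) hy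

/-- the coefficients of a linear form -/
def cA2 : VR := ⟨(88232 : ℝ), (60996 : ℝ), (-1424 : ℝ), (-1448 : ℝ), (-14016 : ℝ), (-1140 : ℝ), (576 : ℝ), (275 : ℝ), (0 : ℝ), (0 : ℝ)⟩

/-- the positive part of the test with the parameter -/
def cPA2 (H : Nat) : V := ⟨805306368 + H * 0, H * 0, H * 1424, H * 1448, H * 14016, H * 1140, H * 0, H * 0, H * 0, H * 0⟩

/-- the negative part of the test with the parameter -/
def cNA2 (H : Nat) : V := ⟨H * 88232, H * 60996, H * 0, H * 0, H * 0, H * 0, H * 576, H * 275, H * 0, H * 0⟩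

/-- the test with the parameter -/
def uA2 (H : Nat) : VR := ⟨(805306368 : ℝ) - H * cA2.a0, -(H * cA2.a1), -(H * cA2.a2), -(H * cA2.a3), -(H * cA2.a4), -(H * cA2.a5), -(H * cA2.a6), -(H * cA2.a7), -(H * cA2.a8), -(H * cA2.a9)⟩

theorem linkA2 (H : Nat) (v : V) : dotR (uA2 H) v.r = (dot (cPA2 H) v : ℝ) - (dot (cNA2 H) v : ℝ) := by
  simp only [dotR, uA2, cA2, V.r, dot_eq, cPA2, cNA2]
  push_cast
  ring

theorem rootSA20 : CellOK 4096 Dom (fun _ _ _ => True) (SideP 4096 uA2) ⟨0, 49152, 0, 4096⟩ ⟨0, 0, 0, 0⟩ :=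
  side_sound (by norm_num) linkA2 (a z0 (b z0 (b z0 (a z0 z0)))) _ _ (by decide +kernel)

theorem rootSA21 : CellOK 4096 Dom (fun _ _ _ => True) (SideP 4096 uA2) ⟨0, 49152, 4096, 12288⟩ ⟨0, 0, 0, 0⟩ :=
  side_sound (by norm_num) linkA2 (a (a (b (a z0 z0) z0) (b (b (b (b (a z0 (b z0 (a z0 z0))) (a z0 (b (b (a z0 z0) (a z0 z0)) (a z0 (b z0 (a z0 z0)))))) (b (a z0 (b (a z0 (b (b z0 (a z0 z0)) (a z0 z0))) (a z0 (b (a z0 z0) (a z0 (b z0 (a z0 z0))))))) (a (b (a z0 z0) (a z0 z0)) (b (a (b (a z0 z0) (a z0 z0)) (b (a z0 z0) (a z0 (b (b z0 z0) (a z0 z0))))) (a (b (a z0 z0) (a z0 z0)) (b (a z0 (b (b z0 (a z0 z0)) (a z0 z0))) (a (b (a z0 z0) (a z0 z0)) (b (a z0 z0) (a z0 z0))))))))) (b (a (b (a z0 (b (a z0 z0) (a z0 z0))) (a z0 (b (a z0 z0) (a z0 z0)))) (b (b (a (b (a z0 z0) (a z0 z0)) (b (b (a z0 (b z0 (a z0 z0))) (a z0 (b (a z0 z0) (a z0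 z0)))) (a (b (a z0 z0) (a z0 z0)) (b (b (a z0 z0) (a z0 z0)) (a z0 z0))))) (a (b (a z0 z0) (a z0 z0)) (b (a (b (a z0 z0) (a z0 z0)) (b (b (a z0 z0) (a z0 z0)) (a z0 z0))) (a (b (a z0 z0) (a z0 z0)) (b (a z0 z0) (a z0 z0)))))) (b (a (b (a z0 (b (a z0 z0) (a z0 z0))) (a z0 (b (a z0 z0) (a z0 z0)))) (b (a (b (a z0 z0) (a z0 z0)) (b (a z0 z0) (a z0 z0))) (a (b (a z0 z0) (a z0 z0)) (b (a z0 z0) (a z0 z0))))) (a (b (a z0 (b (a z0 z0) (a z0 z0))) (a z0 (b (a z0 z0) (a z0 z0)))) (b (a (b (a z0 z0) (a z0 z0)) (b (a z0 z0) (a z0 z0))) (a (b (a z0 z0) (a z0 z0)) (b (a z0 z0) (a z0 z0)))))))) (a (b (a z0 (b (a z0 (b (a z0 z0) (a z0 z0))) (a z0 (b (a z0 z0) (a z0 z0))))) (a z0 (b (a z0 (b (a z0 z0) (a z0 z0))) (a z0 (b (a z0 z0) z0))))) (b (b (a (b (a (b (a z0 z0) (a z0 z0)) (b (a z0 z0) (a z0 z0))) (a (b (a z0 z0) (a z0 z0)) (b (a z0 z0) (a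 z0 z0)))) (b (a (b (a z0 z0) (a z0 z0)) (b z0 (a z0 z0))) (a (b (a z0 z0) (a z0 z0)) (b (a z0 z0) (a z0 z0))))) (a (b (a (b (a z0 z0) (a z0 z0)) (b (a z0 z0) (a z0 z0))) (a (b (a z0 z0) (a z0 z0)) (b (a z0 z0) (a z0 z0)))) (b (a (b (a z0 z0) (a z0 z0)) (b z2 (a z0 z0))) (a (b (a z0 z0) (a z0 z0)) (b (a z0 z0) (a z0 z0)))))) (a (b (a (b (a z0 z0) (a z0 z0)) (b (a z0 z0) (a z0 z0))) (a (b (a z0 z0) (a z0 z0)) (b (a z0 z0) (a z0 z0)))) (b (b (a (b (a z0 z0) (a z0 z0)) (b z2 (a z0 z0))) (a (b (a z0 z0) (a z0 z0)) (b (a z0 z0) (a z0 z0)))) (b (a (b (a z0 z0) (a z0 z0)) (b (a z0 z0) (a z0 z2))) (a (b (a z0 z0) (a z0 z0)) (b (a z0 z0) (a z0 z2)))))))))) (b (b (a (b (a z0 (b (a z0 z0) (a z0 z0))) (b (a z0 z0) z0)) (b (a (b (a (b (a z0 z0) (a z0 z0)) (b (a z0 z0) (a z0 z0))) (a (b (a z0 z0) (a z0 z0)) (b (a z0 z0) (a z0 z0)))) (b (b (a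 (b (a z0 z0) (a z0 z0)) (b (a z0 z2) (a z0 z2))) (a (b (a z0 z0) (a z0 z0)) (b (a z0 z0) (a z0 z0)))) (b (a (b (a z0 z0) (a z0 z0)) (b (a z0 z0) (a z0 z0))) (a (b (a z0 z0) (a z0 z0)) (b (a z0 z0) (a z0 z0)))))) (a (b (a (b (a z0 z0) (a z0 z0)) (b (a z0 z0) (a z0 z0))) (a (b (a z0 z0) (a z0 z0)) (b (a z0 z0) (a z0 z0)))) (b (b (a (b (a z0 z0) (a z0 z0)) (b (a z0 z0) (a z0 z0))) (a (b (a z0 z0) (a z0 z0)) (b (a z0 z0) (a z0 z0)))) (b (a (b (a z0 z0) (a z0 z0)) (b (a z0 z0) (a z0 z0))) (a (b (a z0 z0) (a z0 z0)) (b (a z0 z0) (a z0 z0)))))))) (b (b (a (b (a (b (a z0 z0) z0) (b (a z0 z0) (a z0 z0))) (a z0 z0)) (b (a (b (a z0 z0) (a z0 z0)) (b (a z0 z0) (a z0 z0))) (a (b (a z0 z0) (a z0 z0)) (b (a z0 z0) (a z0 z0))))) (a (b (a z0 z0) z0) (b (a z0 z0) (a z0 z0)))) (b (b (b (a z0 z0) z0) z0) z0))) z0))) (b (b z0 (b z0 z2)) (b (b (b (b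 z2 (b (b z2 (a z0 z0)) (b (a z0 z0) (a z0 z0)))) (b (b (a z2 z2) (a (b (a z0 z0) (a z0 z0)) z2)) (b (a (b (a z0 z0) (a z0 z0)) z2) (a (b (a z0 z0) (a z0 z0)) (b z2 (a z0 z0)))))) (b (b (a (b (a z2 z0) (a z2 z0)) (b z2 (a z0 z0))) (a (b (a (b (a z0 z0) (a z0 z0)) z2) (a (b (a z0 z0) (a z0 z0)) z2)) (b (a z0 z0) (a z0 z0)))) (a (b (a (b (a z0 z0) (a z0 z0)) (b (a z0 z0) (a z0 z0))) (b (a (b (a z0 z0) z0) z0) (a z0 z0))) (b (b z0 (a z0 z0)) (a z0 z0))))) (b (b (a (b (a (b (a z0 z0) z0) z0) z0) z0) (b (a z0 z0) z0)) (b (b z0 z0) (b z0 z0)))))) _ _ (by decide +kernel)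

theorem sideA2 {S τ q : ℝ} (hd : Dom S τ q) :
    ∃ Hp : Nat, (4096 : ℝ) * S ≤ Hp ∧ 0 < Hp ∧ 0 ≤ dotR (uA2 Hp) (ptF S τ q) := by
  have hy : InC 4096 ⟨0, 0, 0, 0⟩ 0 0 := by
    constructor <;> norm_num
  have h1 := hd.s0
  have h2 := hd.s12
  have h3 := hd.t0
  have h4 := hd.t3
  rcases le_total τ 1 with h | h
  · exact rootSA20 S τ q 0 0 0 hd trivial (by constructor <;> push_cast <;> linarith) hy
  · exact rootSA21 S τ q 0 0 0 hd trivial (by constructor <;> push_cast <;> linarith) hy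

end Vale.Agent.Lib.P154Q4
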